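import Vale.Agent.Lib.P074.Third.Exist

/-!
# P074: a power diagram realising a given law on the index set
-/

open MeasureTheory Set Metric
open scoped InnerProductSpace ENNReal

namespace Vale.Agent.Lib.P074

variable {n : ℕ}

/-- Package R1: a power diagram realising a given law on the index set. -/
theorem exists_realisation (K : Set (E 2)) (hK : MeasurableSet K) (hK0 : volume K ≠ 0) (r : ℝ)
    (hKr : K ⊆ closedBall 0 r) (hn : 0 < n) (P : Measure (Fin n)) [IsProbabilityMeasure P]
    (X : Fin n → E 2) (hX : Function.Injective X) :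
    ∃ (w : Fin n → ℝ) (sel : E 2 → Fin n), Measurable sel ∧ (∀ x, x ∈ cell X w (sel x)) ∧
      (unif K).map sel = P ∧ ∀ p, volume (K ∩ cell X w p) = P {p} * volume K := by
  have hKfin : volume K ≠ ∞ :=
    ((measure_mono hKr).trans_lt (isCompact_closedBall _ _).measure_lt_top).ne
  have hsum : ∑ p, (P {p}).toReal = 1 := by
    rw [← ENNReal.toReal_sum fun p _ => measure_ne_top P _]
    have h1 : ∑ p, P {p} = P univ := by
      rw [← measure_biUnion_finset (fun a _ b _ hab => by simpa using hab)
        (fun p _ => measurableSet_singleton p)]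
      congr 1
      ext p
      simp
    rw [h1, measure_univ, ENNReal.toReal_one]
  obtain ⟨w, hw⟩ := exists_weights K hK hK0 r hKr X hX (fun p => (P {p}).toReal)
    (fun p => ENNReal.toReal_nonneg) hsum
  obtain ⟨sel, hsel, hmem⟩ := exists_sel hn X w
  have hvol : ∀ p, volume (K ∩ cell X w p) = P {p} * volume K := by
    intro p
    have h1 : volume (K ∩ cell X w p) ≠ ∞ :=
      ((measure_mono inter_subset_left).trans_lt (lt_top_iff_ne_top.2 hKfin)).ne
    have h2 : P {p} * volume K ≠ ∞ := ENNReal.mul_ne_top (measure_ne_top P _) hKfin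
    rw [← ENNReal.toReal_eq_toReal_iff' h1 h2, hw p, ENNReal.toReal_mul]
  refine ⟨w, sel, hsel, hmem, ?_, hvol⟩
  refine Measure.ext_of_singleton fun p => ?_
  rw [Measure.map_apply hsel (measurableSet_singleton p)]
  unfold unif
  rw [Measure.smul_apply, Measure.restrict_apply (hsel (measurableSet_singleton p)), smul_eq_mul,
    inter_comm, volume_sel_preimage X hX w sel hsel hmem K hK p, hvol p, mul_comm (P {p}),
    ← mul_assoc, ENNReal.inv_mul_cancel hK0 hKfin, one_mul]

end Vale.Agent.Lib.P074
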