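import Vale.Agent.Lib.P074.Third.Disc
import Vale.Agent.Lib.P074.Wasserstein

/-!
# P074: quarter stability steps
-/

open MeasureTheory Set Metric
open scoped InnerProductSpace ENNReal

namespace Vale.Agent.Lib.P074

variable {n : ℕ}

/-- the constant of `stability_of_potentials` in dimension two -/
noncomputable def C0 (K : Set (E 2)) (r R : ℝ) : ℝ :=
  32 * ((2 : ℕ) : ℝ) ^ 3 * R ^ 3 * (r + 1) * (volume (closedBall (0 : E 2) (r + 2))).toReal /
    (volume K).toReal

/-- Package R2: quarter stability between a general Brenier map and a discrete one. -/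
theorem quarter_step_gen (K : Set (E 2)) (hK : MeasurableSet K) (hK0 : volume K ≠ 0) (r : ℝ)
    (hr : 0 ≤ r) (hKr : K ⊆ closedBall 0 r) (R : ℝ) (hR : 0 < R)
    (T : E 2 → E 2) (hT : Measurable T) (φ : E 2 → ℝ) (hTb : ∀ᵐ x ∂(unif K), ‖T x‖ ≤ R)
    (hφ : ∀ᵐ x ∂(unif K), ∀ y, φ x + ⟪T x, y - x⟫_ℝ ≤ φ y)
    (π : Measure (E 2 × E 2)) (g : E 2 × E 2 → E 2) (hg : Measurable g)
    (hgT : π.map g = (unif K).map T) (idx : E 2 × E 2 → Fin n) (hidx : Measurable idx)
    (X : Fin n → E 2) (hXb : ∀ p, ‖X p‖ ≤ R) (w : Fin n → ℝ) (sel : E 2 → Fin n)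
    (hsel : Measurable sel) (hmem : ∀ x, x ∈ cell X w (sel x))
    (hlaw : (unif K).map sel = π.map idx) :
    (∫ x, ‖T x - X (sel x)‖ ^ 2 ∂(unif K)) ^ 2 ≤ C0 K r R * ∫ z, ‖g z - X (idx z)‖ ∂π := by
  have hXm : Measurable X := measurable_of_finite X
  have hS : Measurable fun x => X (sel x) := hXm.comp hsel
  have hpair : Measurable fun z : E 2 × E 2 => (g z, X (idx z)) := hg.prodMk (hXm.comp hidx)
  have hπ : IsCoupling (π.map fun z => (g z, X (idx z))) ((unif K).map T)
      ((unif K).map fun x => X (sel x)) := by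
    constructor
    · rw [Measure.map_map measurable_fst hpair, ← hgT]
      rfl
    · rw [Measure.map_map measurable_snd hpair]
      have e1 : (Prod.snd ∘ fun z : E 2 × E 2 => (g z, X (idx z))) = X ∘ idx := rfl
      have e2 : (fun x => X (sel x)) = X ∘ sel := rfl
      rw [e1, e2, ← Measure.map_map hXm hidx, ← Measure.map_map hXm hsel, hlaw]
  have h := stability_of_potentials K hK hK0 r hr hKr R hR T (fun x => X (sel x)) hT hS φ (pot X w)
    hTb (Filter.Eventually.of_forall fun x => hXb _) hφ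
    (Filter.Eventually.of_forall fun x z => pot_subgradient X w (hmem x) z) _ hπ
  rw [integral_map hpair.aemeasurable (by fun_prop)] at h
  exact h

/-- Package R2: quarter stability between two discrete maps with the same law on the index set. -/
theorem quarter_step_disc (K : Set (E 2)) (hK : MeasurableSet K) (hK0 : volume K ≠ 0) (r : ℝ)
    (hr : 0 ≤ r) (hKr : K ⊆ closedBall 0 r) (R : ℝ) (hR : 0 < R)
    (P : Measure (Fin n)) (X Z : Fin n → E 2) (hXb : ∀ p, ‖X p‖ ≤ R) (hZb : ∀ p, ‖Z p‖ ≤ R)
    (w w' : Fin n → ℝ) (sel sel' : E 2 → Fin n) (hsel : Measurable sel) (hsel' : Measurable sel')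
    (hmem : ∀ x, x ∈ cell X w (sel x)) (hmem' : ∀ x, x ∈ cell Z w' (sel' x))
    (hlaw : (unif K).map sel = P) (hlaw' : (unif K).map sel' = P) :
    (∫ x, ‖X (sel x) - Z (sel' x)‖ ^ 2 ∂(unif K)) ^ 2 ≤ C0 K r R * ∫ p, ‖X p - Z p‖ ∂P := by
  have hXm : Measurable X := measurable_of_finite X
  have hZm : Measurable Z := measurable_of_finite Z
  have hpair : Measurable fun p : Fin n => (X p, Z p) := hXm.prodMk hZm
  have hπ : IsCoupling (P.map fun p => (X p, Z p)) ((unif K).map fun x => X (sel x))
      ((unif K).map fun x => Z (sel' x)) := by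
    constructor
    · rw [Measure.map_map measurable_fst hpair]
      have e1 : (Prod.fst ∘ fun p : Fin n => (X p, Z p)) = X := rfl
      have e2 : (fun x => X (sel x)) = X ∘ sel := rfl
      rw [e1, e2, ← Measure.map_map hXm hsel, hlaw]
    · rw [Measure.map_map measurable_snd hpair]
      have e1 : (Prod.snd ∘ fun p : Fin n => (X p, Z p)) = Z := rfl
      have e2 : (fun x => Z (sel' x)) = Z ∘ sel' := rfl
      rw [e1, e2, ← Measure.map_map hZm hsel', hlaw']
  have h := stability_of_potentials K hK hK0 r hr hKr R hR (fun x => X (sel x))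
    (fun x => Z (sel' x)) (hXm.comp hsel) (hZm.comp hsel') (pot X w) (pot Z w')
    (Filter.Eventually.of_forall fun x => hXb _) (Filter.Eventually.of_forall fun x => hZb _)
    (Filter.Eventually.of_forall fun x z => pot_subgradient X w (hmem x) z)
    (Filter.Eventually.of_forall fun x z => pot_subgradient Z w' (hmem' x) z) _ hπ
  rw [integral_map hpair.aemeasurable (by fun_prop)] at h
  exact h

end Vale.Agent.Lib.P074
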