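import Vale.Agent.Lib.P074.SupToL2

/-!
# P074: `∫_K |T - S|² ≤ C osc_K (φ - ψ)`
-/

open MeasureTheory Set Metric
open scoped InnerProductSpace ENNReal

namespace Vale.Agent.Lib.P074

/-- sup-norm Gagliardo-Nirenberg for differences of convex functions. -/
theorem exists_const_sq_le_osc (d : ℕ) (r R : ℝ) (hr : 0 ≤ r) (hR : 0 < R) :
    ∃ C : ℝ, 0 ≤ C ∧ ∀ (K : Set (E d)), MeasurableSet K → K ⊆ closedBall 0 r →
      ∀ (φ ψ : E d → ℝ), ConvexOn ℝ univ φ → ConvexOn ℝ univ ψ →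
      (∀ x y, φ x - φ y ≤ R * ‖x - y‖) → (∀ x y, ψ x - ψ y ≤ R * ‖x - y‖) →
      ∀ (T S : E d → E d), Measurable T → Measurable S →
      (∀ x ∈ K, ‖T x‖ ≤ R) → (∀ x ∈ K, ‖S x‖ ≤ R) →
      (∀ x ∈ K, ∀ y, φ x + ⟪T x, y - x⟫_ℝ ≤ φ y) → (∀ x ∈ K, ∀ y, ψ x + ⟪S x, y - x⟫_ℝ ≤ ψ y) →
      ∀ (c ω : ℝ), 0 < ω → (∀ x ∈ K, |φ x - ψ x - c| ≤ ω) →
      ∫ x in K, ‖T x - S x‖ ^ 2 ≤ C * ω := by
  refine ⟨8 * d * R * (volume (closedBall (0 : E d) (r + 4))).toReal, by positivity, ?_⟩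
  intro K hK hKr φ ψ hφ hψ hφL hψL T S _ _ _ _ hT hS c ω hω hosc
  have := sq_le_of_osc K hK r hKr R hR.le T S φ ψ hφ hψ hφL hψL
    ((ae_restrict_mem hK).mono fun x hx => hT x hx) ((ae_restrict_mem hK).mono fun x hx => hS x hx)
    c ω hω.le hosc
  calc ∫ x in K, ‖T x - S x‖ ^ 2
      ≤ 8 * d * ω * R * (volume (closedBall (0 : E d) (r + 4))).toReal := this
    _ = 8 * d * R * (volume (closedBall (0 : E d) (r + 4))).toReal * ω := by ring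

end Vale.Agent.Lib.P074
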