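import Vale.Agent.Lib.P074.Third.Sup
import Vale.Agent.Lib.P074.Third.Osc

/-!
# P074: the discrete step (sup-norm stability + sup-norm Gagliardo-Nirenberg)
-/

open MeasureTheory Set Metric
open scoped InnerProductSpace ENNReal

namespace Vale.Agent.Lib.P074

variable {n : ℕ}

/-- Package R3: `sup_stability` + `exists_const_sq_le_osc`. -/
theorem exists_const_disc_step (K : Set (E 2)) (hK : IsCompact K) (hKc : Convex ℝ K)
    (hKi : (interior K).Nonempty) (R : ℝ) (hR : 0 < R) :
    ∃ C1 : ℝ, 0 ≤ C1 ∧ ∀ (n : ℕ), 0 < n → ∀ (i j : Fin 2), i ≠ j → ∀ (A B : Fin n → E 2),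
      (∀ p, A p j = B p j) → (Function.Injective fun p => A p j) →
      (∀ p, ‖A p‖ ≤ R) → (∀ p, ‖B p‖ ≤ R) → ∀ κ : ℝ, 0 < κ → (∀ p, |A p i - B p i| ≤ κ) →
      ∀ (w w' : Fin n → ℝ), (∀ p, volume (K ∩ cell A w p) = volume (K ∩ cell B w' p)) →
      ∀ (sel sel' : E 2 → Fin n), Measurable sel → Measurable sel' →
      (∀ x, x ∈ cell A w (sel x)) → (∀ x, x ∈ cell B w' (sel' x)) →
      ∫ x, ‖A (sel x) - B (sel' x)‖ ^ 2 ∂(unif K) ≤ C1 * κ := by
  obtain ⟨r0, hr0⟩ := hK.isBounded.subset_closedBall (0 : E 2)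
  set rK : ℝ := max r0 1 with hrK
  have hrKpos : 0 < rK := lt_of_lt_of_le one_pos (le_max_right _ _)
  have hKr : K ⊆ closedBall 0 rK := hr0.trans (closedBall_subset_closedBall (le_max_left _ _))
  obtain ⟨C, hC0, hC⟩ := exists_const_sq_le_osc 2 rK R hrKpos.le hR
  refine ⟨(volume K).toReal⁻¹ * (C * rK), by positivity, ?_⟩
  intro n hn i j hij A B hlev hinj hAb hBb κ hκ hAB w w' hmass sel sel' hsel hsel' hmem hmem'
  obtain ⟨c, hc⟩ := sup_stability K hK hKc hKi rK hKr hn i j hij A B hlev hinj κ hAB w w' hmass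
  have key := hC (interior K) isOpen_interior.measurableSet (interior_subset.trans hKr)
    (pot A w) (pot B w') (pot_convex hn A w) (pot_convex hn B w')
    (pot_lip hn A w R hAb) (pot_lip hn B w' R hBb)
    (fun x => A (sel x)) (fun x => B (sel' x)) ((measurable_of_countable A).comp hsel)
    ((measurable_of_countable B).comp hsel') (fun x _ => hAb _) (fun x _ => hBb _)
    (fun x _ y => pot_subgradient A w (hmem x) y) (fun x _ y => pot_subgradient B w' (hmem' x) y)
    c (rK * κ) (by positivity) hc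
  have hae : interior K =ᵐ[volume] K := interior_ae_eq_of_null_frontier (hKc.addHaar_frontier volume)
  rw [integral_unif, ← setIntegral_congr_set hae]
  calc (volume K).toReal⁻¹ * ∫ x in interior K, ‖A (sel x) - B (sel' x)‖ ^ 2
      ≤ (volume K).toReal⁻¹ * (C * (rK * κ)) :=
        mul_le_mul_of_nonneg_left key (by positivity)
    _ = (volume K).toReal⁻¹ * (C * rK) * κ := by ring

end Vale.Agent.Lib.P074
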