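import Vale.Agent.Lib.P074.Defs

/-!
# P074: discretisation of a coupling with generic coordinates
-/

open MeasureTheory Set Metric
open scoped InnerProductSpace ENNReal

namespace Vale.Agent.Lib.P074

/-- a vector of the plane with both coordinates at most `δ / 2` in absolute value has norm `≤ δ` -/
theorem norm_le_of_coord_le (v : E 2) (δ : ℝ) (hδ : 0 < δ) (h : ∀ c, |v c| ≤ δ / 2) : ‖v‖ ≤ δ := by
  have h0 := h 0
  have h1 := h 1
  have e : ‖v‖ ^ 2 = v 0 ^ 2 + v 1 ^ 2 := by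
    rw [EuclideanSpace.norm_sq_eq]; simp [Fin.sum_univ_two]
  have a0 : v 0 ^ 2 ≤ (δ / 2) ^ 2 := sq_le_sq' (by linarith [(abs_le.1 h0).1]) (abs_le.1 h0).2
  have a1 : v 1 ^ 2 ≤ (δ / 2) ^ 2 := sq_le_sq' (by linarith [(abs_le.1 h1).1]) (abs_le.1 h1).2
  have : ‖v‖ ^ 2 ≤ δ ^ 2 := by nlinarith
  exact abs_le_of_sq_le_sq' this hδ.le |>.2

/-- `k + θ = k' + θ'` with integers `k, k'` and `θ, θ' ∈ (0,1)` forces `θ = θ'` -/
theorem frac_eq_of_add_eq (k k' : ℤ) (θ θ' : ℝ) (h0 : 0 < θ) (h1 : θ < 1) (h0' : 0 < θ')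
    (h1' : θ' < 1) (h : (k : ℝ) + θ = (k' : ℝ) + θ') : θ = θ' := by
  have h2 : ((k - k' : ℤ) : ℝ) = θ' - θ := by push_cast; linarith
  have h3 : k - k' = 0 := by
    have a : ((k - k' : ℤ) : ℝ) < 1 := by rw [h2]; linarith
    have b : (-1 : ℝ) < ((k - k' : ℤ) : ℝ) := by rw [h2]; linarith
    have a' : k - k' < 1 := by exact_mod_cast a
    have b' : -1 < k - k' := by exact_mod_cast b
    omega
  rw [h3] at h2
  simp at h2
  linarith

/-- A finite Borel partition of `B_R × B_R` into pieces of diameter `≤ δ`, with representatives `(A p, D p)`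
all of whose first coordinates are pairwise distinct and all of whose second coordinates are pairwise
distinct. -/
theorem exists_discretisation (R δ : ℝ) (hR : 0 ≤ R) (hδ : 0 < δ) :
    ∃ (n : ℕ) (idx : E 2 × E 2 → Fin n) (A D : Fin n → E 2), 0 < n ∧ Measurable idx ∧
      (∀ z : E 2 × E 2, ‖z.1‖ ≤ R → ‖z.2‖ ≤ R →
        ‖A (idx z) - z.1‖ ≤ δ ∧ ‖D (idx z) - z.2‖ ≤ δ) ∧
      (∀ p, ‖A p‖ ≤ R + δ ∧ ‖D p‖ ≤ R + δ) ∧
      (∀ c : Fin 2, Function.Injective (Sum.elim (fun p => A p c) (fun p => D p c))) := by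
  classical
  set η : ℝ := δ / 2 with hη
  have hηpos : 0 < η := by positivity
  let I := (Fin 2 → ℤ) × (Fin 2 → ℤ)
  let κ : E 2 × E 2 → I := fun z => (fun c => ⌊z.1 c / η⌋, fun c => ⌊z.2 c / η⌋)
  have hκm : Measurable κ := by fun_prop
  let 𝒮 : Set I := {c | ∃ z : E 2 × E 2, ‖z.1‖ ≤ R ∧ ‖z.2‖ ≤ R ∧ κ z = c}
  set M : ℤ := ⌈R / η⌉ + 1 with hM
  have hMR : R / η ≤ (M : ℝ) - 1 := by
    rw [hM]; push_cast; linarith [Int.le_ceil (R / η)]
  have hbox : ∀ (v : E 2), ‖v‖ ≤ R → ∀ c, ⌊v c / η⌋ ∈ Icc (-M) M := by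
    intro v hv c
    have h1 : |v c| ≤ R := (by simpa using PiLp.norm_apply_le v c : |v c| ≤ ‖v‖).trans hv
    have h2 : v c / η ≤ R / η := div_le_div_of_nonneg_right (abs_le.1 h1).2 hηpos.le
    have h3 : -(R / η) ≤ v c / η := by
      rw [← neg_div]; exact div_le_div_of_nonneg_right (abs_le.1 h1).1 hηpos.le
    constructor
    · apply Int.le_floor.2
      push_cast
      linarith
    · have : ((⌊v c / η⌋ : ℤ) : ℝ) ≤ (M : ℝ) := (Int.floor_le _).trans (by linarith)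
      exact_mod_cast this
  have hfin : 𝒮.Finite := by
    have hb : ((Set.pi univ fun _ : Fin 2 => Icc (-M) M) ×ˢ
        (Set.pi univ fun _ : Fin 2 => Icc (-M) M) : Set I).Finite :=
      (Set.Finite.pi fun _ => Set.finite_Icc _ _).prod (Set.Finite.pi fun _ => Set.finite_Icc _ _)
    refine hb.subset ?_
    rintro c ⟨z, h1, h2, rfl⟩
    exact ⟨fun i _ => hbox z.1 h1 i, fun i _ => hbox z.2 h2 i⟩
  let 𝒞 : Finset I := hfin.toFinset
  have hmem𝒞 : ∀ c, c ∈ 𝒞 ↔ c ∈ 𝒮 := fun c => hfin.mem_toFinset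
  have h0mem : κ (0, 0) ∈ 𝒞 := (hmem𝒞 _).2 ⟨(0, 0), by simpa using hR, by simpa using hR, rfl⟩
  set n : ℕ := 𝒞.card with hn
  have hnpos : 0 < n := Finset.card_pos.2 ⟨_, h0mem⟩
  let e : 𝒞 ≃ Fin n := 𝒞.equivFin
  let g : I → Fin n := fun c => if h : c ∈ 𝒞 then e ⟨c, h⟩ else e ⟨_, h0mem⟩
  let N : ℝ := 2 * (n : ℝ) + 1
  have hNpos : 0 < N := by positivity
  let θA : Fin n → ℝ := fun p => ((p : ℕ) + 1 : ℝ) / N
  let θD : Fin n → ℝ := fun p => ((n : ℝ) + (p : ℕ) + 1 : ℝ) / N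
  have hpn : ∀ p : Fin n, ((p : ℕ) : ℝ) + 1 ≤ n := by
    intro p
    have : (p : ℕ) + 1 ≤ n := p.2
    exact_mod_cast this
  have hθA : ∀ p, 0 < θA p ∧ θA p < 1 := by
    intro p
    refine ⟨by positivity, ?_⟩
    rw [div_lt_one hNpos]
    have := hpn p
    simp only [N]
    have hn0 : (0 : ℝ) ≤ n := Nat.cast_nonneg _
    linarith
  have hθD : ∀ p, 0 < θD p ∧ θD p < 1 := by
    intro p
    refine ⟨by positivity, ?_⟩
    rw [div_lt_one hNpos]
    have := hpn p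
    simp only [N]
    linarith
  let A : Fin n → E 2 := fun p => WithLp.toLp 2 fun c => η * (((e.symm p).1.1 c : ℤ) + θA p)
  let D : Fin n → E 2 := fun p => WithLp.toLp 2 fun c => η * (((e.symm p).1.2 c : ℤ) + θD p)
  have hAc : ∀ p c, A p c = η * (((e.symm p).1.1 c : ℤ) + θA p) := fun p c => by simp [A]
  have hDc : ∀ p c, D p c = η * (((e.symm p).1.2 c : ℤ) + θD p) := fun p c => by simp [D]
  -- closeness in one coordinate
  have hclose : ∀ (t θ : ℝ), 0 < θ → θ < 1 → |η * ((⌊t / η⌋ : ℤ) + θ) - t| ≤ δ / 2 := by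
    intro t θ h0 h1
    have h2 := Int.floor_le (t / η)
    have h3 := Int.lt_floor_add_one (t / η)
    have h4 : t = η * (t / η) := by field_simp
    have h5 : η * ((⌊t / η⌋ : ℤ) + θ) - t = η * (((⌊t / η⌋ : ℤ) : ℝ) + θ - t / η) := by
      rw [mul_sub, ← h4]
    rw [h5, abs_mul, abs_of_pos hηpos, ← hη]
    have : |((⌊t / η⌋ : ℤ) : ℝ) + θ - t / η| ≤ 1 := by
      rw [abs_le]; constructor <;> linarith
    calc η * |((⌊t / η⌋ : ℤ) : ℝ) + θ - t / η| ≤ η * 1 := by gcongr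
      _ = η := mul_one _
  have hnear : ∀ (p : Fin n) (z : E 2 × E 2), κ z = (e.symm p).1 →
      ‖A p - z.1‖ ≤ δ ∧ ‖D p - z.2‖ ≤ δ := by
    intro p z hz
    constructor
    · refine norm_le_of_coord_le _ δ hδ fun c => ?_
      have : (A p - z.1) c = η * ((⌊z.1 c / η⌋ : ℤ) + θA p) - z.1 c := by
        rw [PiLp.sub_apply, hAc, ← hz]
      rw [this]
      exact hclose _ _ (hθA p).1 (hθA p).2
    · refine norm_le_of_coord_le _ δ hδ fun c => ?_
      have : (D p - z.2) c = η * ((⌊z.2 c / η⌋ : ℤ) + θD p) - z.2 c := by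
        rw [PiLp.sub_apply, hDc, ← hz]
      rw [this]
      exact hclose _ _ (hθD p).1 (hθD p).2
  refine ⟨n, g ∘ κ, A, D, hnpos, (Measurable.of_discrete (f := g)).comp hκm, ?_, ?_, ?_⟩
  · intro z h1 h2
    have hz : κ z ∈ 𝒞 := (hmem𝒞 _).2 ⟨z, h1, h2, rfl⟩
    apply hnear
    simp only [Function.comp, g, dif_pos hz, Equiv.symm_apply_apply]
  · intro p
    obtain ⟨z, h1, h2, hz⟩ := (hmem𝒞 _).1 (e.symm p).2
    obtain ⟨a, b⟩ := hnear p z hz
    constructor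
    · calc ‖A p‖ = ‖z.1 + (A p - z.1)‖ := by congr 1; abel
        _ ≤ ‖z.1‖ + ‖A p - z.1‖ := norm_add_le _ _
        _ ≤ R + δ := add_le_add h1 a
    · calc ‖D p‖ = ‖z.2 + (D p - z.2)‖ := by congr 1; abel
        _ ≤ ‖z.2‖ + ‖D p - z.2‖ := norm_add_le _ _
        _ ≤ R + δ := add_le_add h2 b
  · intro c
    have hcancel : ∀ (k k' : ℤ) (θ θ' : ℝ), 0 < θ → θ < 1 → 0 < θ' → θ' < 1 →
        η * ((k : ℝ) + θ) = η * ((k' : ℝ) + θ') → θ = θ' := by
      intro k k' θ θ' a b a' b' h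
      exact frac_eq_of_add_eq k k' θ θ' a b a' b' (mul_left_cancel₀ hηpos.ne' h)
    rintro (p | p) (q | q) h
    · simp only [Sum.elim_inl] at h
      rw [hAc, hAc] at h
      have := hcancel _ _ _ _ (hθA p).1 (hθA p).2 (hθA q).1 (hθA q).2 h
      simp only [θA] at this
      rw [div_left_inj' hNpos.ne'] at this
      have h2 : (p : ℕ) = (q : ℕ) := by
        have : ((p : ℕ) : ℝ) = ((q : ℕ) : ℝ) := by linarith
        exact_mod_cast this
      rw [Fin.ext h2]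
    · simp only [Sum.elim_inl, Sum.elim_inr] at h
      rw [hAc, hDc] at h
      have := hcancel _ _ _ _ (hθA p).1 (hθA p).2 (hθD q).1 (hθD q).2 h
      simp only [θA, θD] at this
      rw [div_left_inj' hNpos.ne'] at this
      have h1 := hpn p
      have h2 : (0 : ℝ) ≤ ((q : ℕ) : ℝ) := Nat.cast_nonneg _
      exfalso; linarith
    · simp only [Sum.elim_inl, Sum.elim_inr] at h
      rw [hAc, hDc] at h
      have := hcancel _ _ _ _ (hθD p).1 (hθD p).2 (hθA q).1 (hθA q).2 h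
      simp only [θA, θD] at this
      rw [div_left_inj' hNpos.ne'] at this
      have h1 := hpn q
      have h2 : (0 : ℝ) ≤ ((p : ℕ) : ℝ) := Nat.cast_nonneg _
      exfalso; linarith
    · simp only [Sum.elim_inr] at h
      rw [hDc, hDc] at h
      have := hcancel _ _ _ _ (hθD p).1 (hθD p).2 (hθD q).1 (hθD q).2 h
      simp only [θD] at this
      rw [div_left_inj' hNpos.ne'] at this
      have h2 : (p : ℕ) = (q : ℕ) := by
        have : ((p : ℕ) : ℝ) = ((q : ℕ) : ℝ) := by linarith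
        exact_mod_cast this
      rw [Fin.ext h2]

end Vale.Agent.Lib.P074
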