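import Vale.Agent.Lib.P074.Third.ChainA
import Vale.Agent.Lib.P074.Third.Grid

/-!
# P074: the chain `T → T_A → T_B → T_C → T_D → S`
-/

open MeasureTheory Set Metric
open scoped InnerProductSpace ENNReal

namespace Vale.Agent.Lib.P074

/-- squares of bounded differences are integrable -/
theorem integrable_sq_norm_sub {α : Type*} [MeasurableSpace α] (ρ : Measure α) [IsFiniteMeasure ρ]
    (U V : α → E 2) (hU : Measurable U) (hV : Measurable V) (M : ℝ)
    (hUb : ∀ᵐ x ∂ρ, ‖U x‖ ≤ M) (hVb : ∀ᵐ x ∂ρ, ‖V x‖ ≤ M) :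
    Integrable (fun x => ‖U x - V x‖ ^ 2) ρ := by
  refine Integrable.of_bound (by fun_prop) ((2 * M) ^ 2) ?_
  filter_upwards [hUb, hVb] with x h1 h2
  rw [Real.norm_eq_abs, abs_of_nonneg (by positivity)]
  exact pow_le_pow_left₀ (norm_nonneg _) ((norm_sub_le _ _).trans (by linarith)) 2

/-- five-term triangle inequality for squares -/
theorem sq_norm_sub_le_five (t a b c d s : E 2) :
    ‖t - s‖ ^ 2 ≤ 5 * (‖t - a‖ ^ 2 + ‖a - b‖ ^ 2 + ‖b - c‖ ^ 2 + ‖c - d‖ ^ 2 + ‖s - d‖ ^ 2) := by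
  have h : ‖t - s‖ ≤ ‖t - a‖ + ‖a - b‖ + ‖b - c‖ + ‖c - d‖ + ‖s - d‖ := by
    have e : t - s = (t - a) + (a - b) + (b - c) + (c - d) + (d - s) := by abel
    rw [e, norm_sub_rev s d]
    refine (norm_add_le _ _).trans (add_le_add_left ?_ _)
    refine (norm_add_le _ _).trans (add_le_add_left ?_ _)
    refine (norm_add_le _ _).trans (add_le_add_left ?_ _)
    exact norm_add_le _ _
  have h2 := pow_le_pow_left₀ (norm_nonneg _) h 2
  refine h2.trans ?_
  generalize ‖t - a‖ = x1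
  generalize ‖a - b‖ = x2
  generalize ‖b - c‖ = x3
  generalize ‖c - d‖ = x4
  generalize ‖s - d‖ = x5
  nlinarith [sq_nonneg (x1 - x2), sq_nonneg (x1 - x3), sq_nonneg (x1 - x4), sq_nonneg (x1 - x5),
    sq_nonneg (x2 - x3), sq_nonneg (x2 - x4), sq_nonneg (x2 - x5), sq_nonneg (x3 - x4),
    sq_nonneg (x3 - x5), sq_nonneg (x4 - x5)]

theorem abs_coord_le (v : E 2) (c : Fin 2) : |v c| ≤ ‖v‖ := by
  simpa using PiLp.norm_apply_le v c

theorem C0_nonneg (K : Set (E 2)) (r R : ℝ) (hr : 0 ≤ r) (hR : 0 ≤ R) : 0 ≤ C0 K r R := by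
  unfold C0
  positivity

/-- the marginal bound transfers to the coupling -/
theorem ae_norm_le_of_map_eq {α β : Type*} [MeasurableSpace α] [MeasurableSpace β]
    (ρ : Measure α) (π : Measure β) (T : α → E 2) (g : β → E 2) (hT : Measurable T)
    (hg : Measurable g) (h : π.map g = ρ.map T) (R : ℝ) (hTb : ∀ᵐ x ∂ρ, ‖T x‖ ≤ R) :
    ∀ᵐ z ∂π, ‖g z‖ ≤ R := by
  have hm : MeasurableSet {y : E 2 | ¬ ‖y‖ ≤ R} :=
    (measurableSet_le measurable_norm measurable_const).compl
  have h1 : (ρ.map T) {y : E 2 | ¬ ‖y‖ ≤ R} = 0 := by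
    rw [Measure.map_apply hT hm]
    exact hTb
  rw [← h, Measure.map_apply hg hm] at h1
  exact h1

/-- Package R4: the chain. -/
theorem chain_estimate (K : Set (E 2)) (hK : IsCompact K) (hKc : Convex ℝ K)
    (hKi : (interior K).Nonempty) (R : ℝ) (hR : 0 < R) :
    ∃ c0 c1 : ℝ, 0 ≤ c0 ∧ 0 ≤ c1 ∧ ∀ (T S : E 2 → E 2), Measurable T → Measurable S →
      ∀ φ ψ : E 2 → ℝ, (∀ᵐ x ∂(unif K), ‖T x‖ ≤ R) → (∀ᵐ x ∂(unif K), ‖S x‖ ≤ R) →
      (∀ᵐ x ∂(unif K), ∀ y, φ x + ⟪T x, y - x⟫_ℝ ≤ φ y) →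
      (∀ᵐ x ∂(unif K), ∀ y, ψ x + ⟪S x, y - x⟫_ℝ ≤ ψ y) →
      ∀ π : Measure (E 2 × E 2), IsCoupling π ((unif K).map T) ((unif K).map S) →
      ∀ δ κ : ℝ, 0 < δ → δ ≤ 1 → 0 < κ →
      ∫ x, ‖T x - S x‖ ^ 2 ∂(unif K) ≤
        5 * (2 * Real.sqrt (c0 * δ) + 2 * (c1 * κ) +
          Real.sqrt (c0 * ((∫ z, ‖z.1 - z.2‖ ^ 2 ∂π + 8 * (R + 1) * δ) / κ))) := by
  classical
  obtain ⟨r0, hr0⟩ := hK.isBounded.subset_closedBall (0 : E 2)
  set r : ℝ := max r0 0 with hr
  have hr0' : 0 ≤ r := le_max_right _ _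
  have hKr : K ⊆ closedBall 0 r := hr0.trans (closedBall_subset_closedBall (le_max_left _ _))
  have hKm : MeasurableSet K := hK.measurableSet
  have hK0 : volume K ≠ 0 :=
    ((isOpen_interior.measure_pos volume hKi).trans_le (measure_mono interior_subset)).ne'
  have hKfin : volume K ≠ ∞ := hK.measure_lt_top.ne
  have hprob := isProbabilityMeasure_unif K hKfin hK0
  set R' : ℝ := 2 * (R + 1) with hR'
  have hR'pos : 0 < R' := by positivity
  obtain ⟨C1, hC1, hstep⟩ := exists_const_disc_step K hK hKc hKi R' hR'pos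
  refine ⟨C0 K r R', C1, C0_nonneg K r R' hr0' hR'pos.le, hC1, ?_⟩
  intro T S hT hS φ ψ hTb hSb hφ hψ π hπ δ κ hδ hδ1 hκ
  have hc0 : 0 ≤ C0 K r R' := C0_nonneg K r R' hr0' hR'pos.le
  obtain ⟨n, idx, A, D, hn, hidx, hnear, hbd, hinj⟩ := exists_discretisation R δ hR.le hδ
  have hπprob : IsProbabilityMeasure π := by
    constructor
    have : π univ = (π.map Prod.fst) univ := by
      rw [Measure.map_apply measurable_fst MeasurableSet.univ]
      rfl
    rw [this, hπ.1, Measure.map_apply hT MeasurableSet.univ]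
    simp
  have hP : IsProbabilityMeasure (π.map idx) := Measure.isProbabilityMeasure_map hidx.aemeasurable
  -- bounds for the coupling
  have hz1 : ∀ᵐ z ∂π, ‖z.1‖ ≤ R :=
    ae_norm_le_of_map_eq (unif K) π T Prod.fst hT measurable_fst hπ.1 R hTb
  have hz2 : ∀ᵐ z ∂π, ‖z.2‖ ≤ R :=
    ae_norm_le_of_map_eq (unif K) π S Prod.snd hS measurable_snd hπ.2 R hSb
  -- the sites
  let Cc : Fin n → E 2 := fun p => if ‖A p - D p‖ ≤ κ then D p else A p
  let B : Fin n → E 2 := fun p => WithLp.toLp 2 fun c => if c = 0 then Cc p 0 else A p 1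
  have hB0 : ∀ p, B p 0 = Cc p 0 := fun p => by simp [B]
  have hB1 : ∀ p, B p 1 = A p 1 := fun p => by simp [B]
  have hAinj : ∀ c, Function.Injective fun p => A p c := fun c =>
    (hinj c).comp Sum.inl_injective
  have hDinj : ∀ c, Function.Injective fun p => D p c := fun c =>
    (hinj c).comp Sum.inr_injective
  have hCinj : ∀ c, Function.Injective fun p => Cc p c := by
    intro c
    let s : Fin n → Fin n ⊕ Fin n := fun p => if ‖A p - D p‖ ≤ κ then Sum.inr p else Sum.inl p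
    have hs : Function.Injective s := by
      intro p q h
      simp only [s] at h
      split_ifs at h
      · exact Sum.inr_injective h
      · exact Sum.inl_injective h
    have e : (fun p => Cc p c) = (Sum.elim (fun p => A p c) (fun p => D p c)) ∘ s := by
      funext p
      simp only [Cc, s, Function.comp]
      split_ifs <;> simp
    rw [e]
    exact (hinj c).comp hs
  have hAI : Function.Injective A := fun p q h => hAinj 0 (by simp only [h])
  have hDI : Function.Injective D := fun p q h => hDinj 0 (by simp only [h])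
  have hCI : Function.Injective Cc := fun p q h => hCinj 0 (by simp only [h])
  have hBI : Function.Injective B := fun p q h => hAinj 1 (by
    have : B p 1 = B q 1 := by rw [h]
    simpa only [hB1] using this)
  have hAb1 : ∀ p, ‖A p‖ ≤ R + 1 := fun p => (hbd p).1.trans (by linarith)
  have hDb1 : ∀ p, ‖D p‖ ≤ R + 1 := fun p => (hbd p).2.trans (by linarith)
  have hCb1 : ∀ p, ‖Cc p‖ ≤ R + 1 := by
    intro p
    simp only [Cc]
    split_ifs
    · exact hDb1 p
    · exact hAb1 p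
  have hAb : ∀ p, ‖A p‖ ≤ R' := fun p => (hAb1 p).trans (by rw [hR']; linarith)
  have hDb : ∀ p, ‖D p‖ ≤ R' := fun p => (hDb1 p).trans (by rw [hR']; linarith)
  have hCb : ∀ p, ‖Cc p‖ ≤ R' := fun p => (hCb1 p).trans (by rw [hR']; linarith)
  have hBb : ∀ p, ‖B p‖ ≤ R' := by
    intro p
    refine norm_le_of_coord_le _ R' hR'pos fun c => ?_
    have : R' / 2 = R + 1 := by rw [hR']; ring
    rw [this]
    fin_cases c
    · show |B p 0| ≤ R + 1
      rw [hB0]; exact (abs_coord_le _ _).trans (hCb1 p)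
    · show |B p 1| ≤ R + 1
      rw [hB1]; exact (abs_coord_le _ _).trans (hAb1 p)
  have hAC : ∀ p, ‖A p - Cc p‖ ≤ κ := by
    intro p
    simp only [Cc]
    split_ifs with h
    · exact h
    · simpa using hκ.le
  -- the four power diagrams
  obtain ⟨wA, selA, hselA, hmemA, hlawA, hvolA⟩ :=
    exists_realisation K hKm hK0 r hKr hn (π.map idx) A hAI
  obtain ⟨wB, selB, hselB, hmemB, hlawB, hvolB⟩ :=
    exists_realisation K hKm hK0 r hKr hn (π.map idx) B hBI
  obtain ⟨wC, selC, hselC, hmemC, hlawC, hvolC⟩ :=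
    exists_realisation K hKm hK0 r hKr hn (π.map idx) Cc hCI
  obtain ⟨wD, selD, hselD, hmemD, hlawD, hvolD⟩ :=
    exists_realisation K hKm hK0 r hKr hn (π.map idx) D hDI
  have hTb' : ∀ᵐ x ∂(unif K), ‖T x‖ ≤ R' := by
    filter_upwards [hTb] with x hx using hx.trans (by rw [hR']; linarith)
  have hSb' : ∀ᵐ x ∂(unif K), ‖S x‖ ≤ R' := by
    filter_upwards [hSb] with x hx using hx.trans (by rw [hR']; linarith)
  -- the five steps
  have s1 := quarter_step_gen K hKm hK0 r hr0' hKr R' hR'pos T hT φ hTb' hφ π Prod.fst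
    measurable_fst hπ.1 idx hidx A hAb wA selA hselA hmemA hlawA
  have s5 := quarter_step_gen K hKm hK0 r hr0' hKr R' hR'pos S hS ψ hSb' hψ π Prod.snd
    measurable_snd hπ.2 idx hidx D hDb wD selD hselD hmemD hlawD
  have s2 := hstep n hn 0 1 (by decide) A B (fun p => (hB1 p).symm) (hAinj 1) hAb hBb κ hκ
    (fun p => by
      rw [hB0]
      have := abs_coord_le (A p - Cc p) 0
      rw [PiLp.sub_apply] at this
      exact this.trans (hAC p))
    wA wB (fun p => by rw [hvolA, hvolB]) selA selB hselA hselB hmemA hmemB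
  have s3 := hstep n hn 1 0 (by decide) B Cc hB0
    (by
      have : (fun p => B p 0) = fun p => Cc p 0 := funext hB0
      rw [this]; exact hCinj 0) hBb hCb κ hκ
    (fun p => by
      rw [hB1]
      have := abs_coord_le (A p - Cc p) 1
      rw [PiLp.sub_apply] at this
      exact this.trans (hAC p))
    wB wC (fun p => by rw [hvolB, hvolC]) selB selC hselB hselC hmemB hmemC
  have s4 := quarter_step_disc K hKm hK0 r hr0' hKr R' hR'pos (π.map idx) Cc D hCb hDb wC wD
    selC selD hselC hselD hmemC hmemD hlawC hlawD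
  -- measurability and integrability
  have hmA : Measurable fun x => A (selA x) := (Measurable.of_discrete (f := A)).comp hselA
  have hmB : Measurable fun x => B (selB x) := (Measurable.of_discrete (f := B)).comp hselB
  have hmC : Measurable fun x => Cc (selC x) := (Measurable.of_discrete (f := Cc)).comp hselC
  have hmD : Measurable fun x => D (selD x) := (Measurable.of_discrete (f := D)).comp hselD
  have bA : ∀ᵐ x ∂(unif K), ‖A (selA x)‖ ≤ R' := Filter.Eventually.of_forall fun x => hAb _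
  have bB : ∀ᵐ x ∂(unif K), ‖B (selB x)‖ ≤ R' := Filter.Eventually.of_forall fun x => hBb _
  have bC : ∀ᵐ x ∂(unif K), ‖Cc (selC x)‖ ≤ R' := Filter.Eventually.of_forall fun x => hCb _
  have bD : ∀ᵐ x ∂(unif K), ‖D (selD x)‖ ≤ R' := Filter.Eventually.of_forall fun x => hDb _
  have i1 := integrable_sq_norm_sub (unif K) T _ hT hmA R' hTb' bA
  have i2 := integrable_sq_norm_sub (unif K) _ _ hmA hmB R' bA bB
  have i3 := integrable_sq_norm_sub (unif K) _ _ hmB hmC R' bB bC
  have i4 := integrable_sq_norm_sub (unif K) _ _ hmC hmD R' bC bD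
  have i5 := integrable_sq_norm_sub (unif K) S _ hS hmD R' hSb' bD
  set q1 : ℝ := ∫ x, ‖T x - A (selA x)‖ ^ 2 ∂(unif K) with hq1
  set q2 : ℝ := ∫ x, ‖A (selA x) - B (selB x)‖ ^ 2 ∂(unif K) with hq2
  set q3 : ℝ := ∫ x, ‖B (selB x) - Cc (selC x)‖ ^ 2 ∂(unif K) with hq3
  set q4 : ℝ := ∫ x, ‖Cc (selC x) - D (selD x)‖ ^ 2 ∂(unif K) with hq4
  set q5 : ℝ := ∫ x, ‖S x - D (selD x)‖ ^ 2 ∂(unif K) with hq5
  have hQ : ∫ x, ‖T x - S x‖ ^ 2 ∂(unif K) ≤ 5 * (q1 + q2 + q3 + q4 + q5) := by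
    have j2 : Integrable (fun x => ‖T x - A (selA x)‖ ^ 2 + ‖A (selA x) - B (selB x)‖ ^ 2)
        (unif K) := i1.add i2
    have j3 : Integrable (fun x => ‖T x - A (selA x)‖ ^ 2 + ‖A (selA x) - B (selB x)‖ ^ 2 +
        ‖B (selB x) - Cc (selC x)‖ ^ 2) (unif K) := j2.add i3
    have j4 : Integrable (fun x => ‖T x - A (selA x)‖ ^ 2 + ‖A (selA x) - B (selB x)‖ ^ 2 +
        ‖B (selB x) - Cc (selC x)‖ ^ 2 + ‖Cc (selC x) - D (selD x)‖ ^ 2) (unif K) := j3.add i4
    have e : 5 * (q1 + q2 + q3 + q4 + q5) = ∫ x, 5 * (‖T x - A (selA x)‖ ^ 2 +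
        ‖A (selA x) - B (selB x)‖ ^ 2 + ‖B (selB x) - Cc (selC x)‖ ^ 2 +
        ‖Cc (selC x) - D (selD x)‖ ^ 2 + ‖S x - D (selD x)‖ ^ 2) ∂(unif K) := by
      rw [integral_const_mul, integral_add j4 i5, integral_add j3 i4, integral_add j2 i3,
        integral_add i1 i2]
    rw [e]
    refine integral_mono_of_nonneg (Filter.Eventually.of_forall fun x => by positivity)
      ((j4.add i5).const_mul 5)
      (Filter.Eventually.of_forall fun x => sq_norm_sub_le_five _ _ _ _ _ _)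
  -- the discretisation errors
  have hJ1 : ∫ z, ‖Prod.fst z - A (idx z)‖ ∂π ≤ δ := by
    have : ∫ z, ‖Prod.fst z - A (idx z)‖ ∂π ≤ ∫ _z, δ ∂π := by
      refine integral_mono_of_nonneg (Filter.Eventually.of_forall fun z => norm_nonneg _)
        (integrable_const δ) ?_
      filter_upwards [hz1, hz2] with z h1 h2
      rw [norm_sub_rev]
      exact (hnear z h1 h2).1
    simpa using this
  have hJ5 : ∫ z, ‖Prod.snd z - D (idx z)‖ ∂π ≤ δ := by
    have : ∫ z, ‖Prod.snd z - D (idx z)‖ ∂π ≤ ∫ _z, δ ∂π := by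
      refine integral_mono_of_nonneg (Filter.Eventually.of_forall fun z => norm_nonneg _)
        (integrable_const δ) ?_
      filter_upwards [hz1, hz2] with z h1 h2
      rw [norm_sub_rev]
      exact (hnear z h1 h2).2
    simpa using this
  have iI : Integrable (fun z : E 2 × E 2 => ‖z.1 - z.2‖ ^ 2) π :=
    integrable_sq_norm_sub π Prod.fst Prod.snd measurable_fst measurable_snd R hz1 hz2
  set I : ℝ := ∫ z, ‖z.1 - z.2‖ ^ 2 ∂π with hI
  have hJ4 : ∫ p, ‖Cc p - D p‖ ∂(π.map idx) ≤ (I + 8 * (R + 1) * δ) / κ := by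
    rw [integral_map hidx.aemeasurable
      (Measurable.of_discrete (f := fun p => ‖Cc p - D p‖)).aestronglyMeasurable]
    have e : (I + 8 * (R + 1) * δ) / κ = ∫ z, (‖z.1 - z.2‖ ^ 2 + 8 * (R + 1) * δ) / κ ∂π := by
      rw [integral_div, integral_add iI (integrable_const _)]
      simp [hI]
    rw [e]
    refine integral_mono_of_nonneg (Filter.Eventually.of_forall fun z => norm_nonneg _)
      ((iI.add (integrable_const _)).div_const κ) ?_
    filter_upwards [hz1, hz2] with z h1 h2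
    obtain ⟨n1, n2⟩ := hnear z h1 h2
    set t : ℝ := ‖z.1 - z.2‖ with ht
    have ht0 : 0 ≤ t := norm_nonneg _
    have htR : t ≤ 2 * R := (norm_sub_le _ _).trans (by linarith)
    have ha : ‖A (idx z) - D (idx z)‖ ≤ t + 2 * δ := by
      have e2 : A (idx z) - D (idx z) = (A (idx z) - z.1) + (z.1 - z.2) + (z.2 - D (idx z)) := by
        abel
      rw [e2]
      refine (norm_add_le _ _).trans ?_
      have := norm_add_le (A (idx z) - z.1) (z.1 - z.2)
      rw [norm_sub_rev z.2]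
      linarith
    have hsq : (t + 2 * δ) ^ 2 ≤ t ^ 2 + 8 * (R + 1) * δ := by nlinarith
    show ‖Cc (idx z) - D (idx z)‖ ≤ (t ^ 2 + 8 * (R + 1) * δ) / κ
    simp only [Cc]
    split_ifs with h
    · simp only [sub_self, norm_zero]
      positivity
    · rw [not_le] at h
      set a : ℝ := ‖A (idx z) - D (idx z)‖ with haa
      rw [le_div_iff₀ hκ]
      have h3 : a ^ 2 ≤ (t + 2 * δ) ^ 2 := pow_le_pow_left₀ (norm_nonneg _) ha 2
      nlinarith
  have hq1' : q1 ≤ Real.sqrt (C0 K r R' * δ) := by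
    refine Real.le_sqrt_of_sq_le (s1.trans ?_)
    exact mul_le_mul_of_nonneg_left hJ1 hc0
  have hq5' : q5 ≤ Real.sqrt (C0 K r R' * δ) := by
    refine Real.le_sqrt_of_sq_le (s5.trans ?_)
    exact mul_le_mul_of_nonneg_left hJ5 hc0
  have hq4' : q4 ≤ Real.sqrt (C0 K r R' * ((I + 8 * (R + 1) * δ) / κ)) := by
    refine Real.le_sqrt_of_sq_le (s4.trans ?_)
    exact mul_le_mul_of_nonneg_left hJ4 hc0
  linarith

end Vale.Agent.Lib.P074
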