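import Vale.Agent.Lib.P074.Third.ChainB
import Vale.Agent.Lib.P074.Monge

/-!
# P074: optimisation of the parameters; the exponent 1/3 is admissible in the plane
-/

open MeasureTheory Set Metric
open scoped InnerProductSpace ENNReal

namespace Vale.Agent.Lib.P074

/-- letting `δ → 0` in the chain estimate -/
theorem le_of_forall_delta (Q c0 c1 I R κ : ℝ)
    (h : ∀ δ : ℝ, 0 < δ → δ ≤ 1 → Q ≤ 5 * (2 * Real.sqrt (c0 * δ) + 2 * (c1 * κ) +
          Real.sqrt (c0 * ((I + 8 * (R + 1) * δ) / κ)))) :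
    Q ≤ 5 * (2 * (c1 * κ) + Real.sqrt (c0 * (I / κ))) := by
  have hcont : Continuous fun δ : ℝ => 5 * (2 * Real.sqrt (c0 * δ) + 2 * (c1 * κ) +
          Real.sqrt (c0 * ((I + 8 * (R + 1) * δ) / κ))) := by fun_prop
  have ht := (hcont.tendsto 0).mono_left (nhdsWithin_le_nhds (s := Ioi (0 : ℝ)))
  have hval : 5 * (2 * Real.sqrt (c0 * 0) + 2 * (c1 * κ) +
          Real.sqrt (c0 * ((I + 8 * (R + 1) * 0) / κ))) =
      5 * (2 * (c1 * κ) + Real.sqrt (c0 * (I / κ))) := by simp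
  rw [hval] at ht
  refine ge_of_tendsto ht ?_
  filter_upwards [Ioc_mem_nhdsGT (zero_lt_one' ℝ)] with δ hδ
  exact h δ hδ.1 hδ.2

/-- optimisation in `κ` -/
theorem cube_le_of_forall_kappa (Q c0 c1 I : ℝ) (hQ : 0 ≤ Q) (hc0 : 0 ≤ c0) (hc1 : 0 ≤ c1)
    (hI : 0 ≤ I)
    (h : ∀ κ : ℝ, 0 < κ → Q ≤ 5 * (2 * (c1 * κ) + Real.sqrt (c0 * (I / κ)))) :
    Q ^ 3 ≤ (5 * (2 * c1 + Real.sqrt c0)) ^ 3 * I := by
  rcases hI.eq_or_lt with hI0 | hIpos
  · -- `I = 0`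
    have hQ0 : Q ≤ 0 := by
      refine le_of_forall_pos_le_add fun ε hε => ?_
      have := h (ε / (10 * c1 + 1)) (by positivity)
      rw [← hI0] at this
      simp only [zero_div, mul_zero, Real.sqrt_zero, add_zero] at this
      have h2 : 5 * (2 * (c1 * (ε / (10 * c1 + 1)))) ≤ ε := by
        have : 5 * (2 * (c1 * (ε / (10 * c1 + 1)))) = ε * (10 * c1 / (10 * c1 + 1)) := by
          field_simp
          ring
        rw [this]
        have h3 : 10 * c1 / (10 * c1 + 1) ≤ 1 := by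
          rw [div_le_one (by positivity)]; linarith
        calc ε * (10 * c1 / (10 * c1 + 1)) ≤ ε * 1 := by gcongr
          _ = ε := mul_one _
      linarith
    have : Q = 0 := le_antisymm hQ0 hQ
    rw [this, ← hI0]
    simp
  · set k : ℝ := I ^ (1 / 3 : ℝ) with hk
    have hkpos : 0 < k := Real.rpow_pos_of_pos hIpos _
    have hk3 : k ^ 3 = I := by
      rw [hk, ← Real.rpow_natCast, ← Real.rpow_mul hI]
      norm_num
    have h1 := h k hkpos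
    have h2 : I / k = k ^ 2 := by
      rw [← hk3]; field_simp
    have h3 : Real.sqrt (c0 * (I / k)) = Real.sqrt c0 * k := by
      rw [h2, Real.sqrt_mul hc0, Real.sqrt_sq hkpos.le]
    rw [h3] at h1
    have h4 : Q ≤ 5 * (2 * c1 + Real.sqrt c0) * k := by linarith
    calc Q ^ 3 ≤ (5 * (2 * c1 + Real.sqrt c0) * k) ^ 3 := pow_le_pow_left₀ hQ h4 3
      _ = (5 * (2 * c1 + Real.sqrt c0)) ^ 3 * I := by rw [mul_pow, hk3]

/-- Package R5: optimisation in `δ → 0` and `κ = ε^{2/3}`. -/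
theorem stability_third (K : Set (E 2)) (hK : IsCompact K) (hKc : Convex ℝ K)
    (hKi : (interior K).Nonempty) (R : ℝ) (hR : 0 < R) :
    ∃ C : ℝ, 0 ≤ C ∧ ∀ (T S : E 2 → E 2), Measurable T → Measurable S →
      ∀ φ ψ : E 2 → ℝ, (∀ᵐ x ∂(unif K), ‖T x‖ ≤ R) → (∀ᵐ x ∂(unif K), ‖S x‖ ≤ R) →
      (∀ᵐ x ∂(unif K), ∀ y, φ x + ⟪T x, y - x⟫_ℝ ≤ φ y) →
      (∀ᵐ x ∂(unif K), ∀ y, ψ x + ⟪S x, y - x⟫_ℝ ≤ ψ y) →
      ∀ π : Measure (E 2 × E 2), IsCoupling π ((unif K).map T) ((unif K).map S) →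
      (∫ x, ‖T x - S x‖ ^ 2 ∂(unif K)) ^ 3 ≤ C * ∫ z, ‖z.1 - z.2‖ ^ 2 ∂π := by
  obtain ⟨c0, c1, hc0, hc1, h⟩ := chain_estimate K hK hKc hKi R hR
  refine ⟨(5 * (2 * c1 + Real.sqrt c0)) ^ 3, by positivity, ?_⟩
  intro T S hT hS φ ψ hTb hSb hφ hψ π hπ
  refine cube_le_of_forall_kappa _ c0 c1 _ (integral_nonneg fun x => by positivity) hc0 hc1
    (integral_nonneg fun z => by positivity) fun κ hκ => ?_
  refine le_of_forall_delta _ c0 c1 _ R κ fun δ hδ hδ1 => ?_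
  exact h T S hT hS φ ψ hTb hSb hφ hψ π hπ δ κ hδ hδ1 hκ

/-- from `x⁶ ≤ C w²` to `x ≤ C^{1/6} w^{1/3}` -/
theorem le_mul_rpow_third (x C w : ℝ) (hx : 0 ≤ x) (hC : 0 ≤ C) (hw : 0 ≤ w)
    (h : x ^ 6 ≤ C * w ^ 2) : x ≤ C ^ (1 / 6 : ℝ) * w ^ (1 / 3 : ℝ) := by
  have h1 : x = (x ^ 6) ^ (1 / 6 : ℝ) := by
    rw [← Real.rpow_natCast, ← Real.rpow_mul hx]
    norm_num
  have h2 : w ^ (1 / 3 : ℝ) = (w ^ 2) ^ (1 / 6 : ℝ) := by
    rw [← Real.rpow_natCast, ← Real.rpow_mul hw]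
    norm_num
  rw [h2, ← Real.mul_rpow hC (by positivity), h1]
  exact Real.rpow_le_rpow (by positivity) h (by norm_num)

/-- Package R5: the exponent `1/3` is admissible in the plane. -/
theorem admissible_third : Admissible 2 (1 / 3) := by
  intro K hK hKc hKi Y hY _
  obtain ⟨R0, hR0⟩ := hY.isBounded.subset_closedBall (0 : E 2)
  set R : ℝ := max R0 1 with hR
  have hYR : Y ⊆ closedBall 0 R := hR0.trans (closedBall_subset_closedBall (le_max_left _ _))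
  have hRpos : 0 < R := lt_of_lt_of_le one_pos (le_max_right _ _)
  obtain ⟨C, hC, hmain⟩ := stability_third K hK hKc hKi R hRpos
  refine ⟨(C + 1) ^ (1 / 6 : ℝ), fun μ ν _ _ hμY hνY T S hT hS => ?_⟩
  obtain ⟨hTm, φ, -, hφ⟩ := isBrenierMap_of_isOTMap K hK hKc hKi Y hY μ hμY T hT
  obtain ⟨hSm, ψ, -, hψ⟩ := isBrenierMap_of_isOTMap K hK hKc hKi Y hY ν hνY S hS
  have hmem : ∀ (μ : Measure (E 2)) (T : E 2 → E 2), Measurable T → (unif K).map T = μ →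
      μ Yᶜ = 0 → ∀ᵐ x ∂(unif K), ‖T x‖ ≤ R := by
    intro μ T hTm hmap hμY
    rw [← hmap, Measure.map_apply hTm hY.isClosed.measurableSet.compl] at hμY
    have : ∀ᵐ x ∂(unif K), x ∉ T ⁻¹' Yᶜ := measure_eq_zero_iff_ae_notMem.1 hμY
    filter_upwards [this] with x hx
    have : T x ∈ Y := by
      by_contra hcon
      exact hx hcon
    exact mem_closedBall_zero_iff.1 (hYR this)
  set Q : ℝ := ∫ x, ‖T x - S x‖ ^ 2 ∂(unif K) with hQ
  have hQ0 : 0 ≤ Q := integral_nonneg fun x => by positivity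
  have hall : ∀ π, IsCoupling π μ ν → Q ^ 3 ≤ C * ∫ z, ‖z.1 - z.2‖ ^ 2 ∂π := by
    intro π hπ
    rw [← hT.2.1, ← hS.2.1] at hπ
    exact hmain T S hTm hSm φ ψ (hmem μ T hTm hT.2.1 hμY) (hmem ν S hSm hS.2.1 hνY) hφ hψ π hπ
  have hne : ∃ π, IsCoupling π μ ν := by
    have := isCoupling_map_prod (unif K) T S hTm hSm
    rw [hT.2.1, hS.2.1] at this
    exact ⟨_, this⟩
  have hCpos : 0 < C + 1 := by linarith
  have hW : Real.sqrt (Q ^ 3 / (C + 1)) ≤ W 2 μ ν := by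
    refine le_W_of_forall_coupling 2 μ ν hne _ fun π hπ => ?_
    have h1 := hall π hπ
    have h0 : 0 ≤ ∫ z, ‖z.1 - z.2‖ ^ 2 ∂π := integral_nonneg fun z => by positivity
    have h2 : Q ^ 3 / (C + 1) ≤ ∫ z, ‖z.1 - z.2‖ ^ 2 ∂π := by
      rw [div_le_iff₀ hCpos]
      nlinarith
    have h3 := Real.sqrt_le_sqrt h2
    rw [Real.sqrt_eq_rpow (∫ z, ‖z.1 - z.2‖ ^ 2 ∂π)] at h3
    simpa using h3
  obtain ⟨hW0, hW2⟩ := Real.sqrt_le_iff.1 hW
  refine le_mul_rpow_third _ _ _ (Real.sqrt_nonneg _) hCpos.le hW0 ?_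
  have h6 : L2dist (unif K) T S ^ 6 = Q ^ 3 := by
    unfold L2dist
    rw [← hQ]
    have : Real.sqrt Q ^ 6 = (Real.sqrt Q ^ 2) ^ 3 := by ring
    rw [this, Real.sq_sqrt hQ0]
  rw [h6]
  rwa [div_le_iff₀' hCpos] at hW2

end Vale.Agent.Lib.P074
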