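import Vale.Agent.Lib.P074.Stability
import Vale.Agent.Lib.P074.Exist

/-!
# P074, exponent 1/3 in the plane: power diagrams (definitions and basic facts)
-/

open MeasureTheory Set Metric
open scoped InnerProductSpace ENNReal

namespace Vale.Agent.Lib.P074

variable {d n : ℕ}

/-- the affine function `x ↦ ⟪x, y i⟫ - w i` -/
noncomputable def aff (y : Fin n → E d) (w : Fin n → ℝ) (i : Fin n) (x : E d) : ℝ := ⟪x, y i⟫_ℝ - w i

/-- the closed power cell of the site `y i` -/
def cell (y : Fin n → E d) (w : Fin n → ℝ) (i : Fin n) : Set (E d) :=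
  {x | ∀ j, aff y w j x ≤ aff y w i x}

/-- the potential `max_i (⟪x, y i⟫ - w i)` -/
noncomputable def pot (y : Fin n → E d) (w : Fin n → ℝ) (x : E d) : ℝ := ⨆ i, aff y w i x

theorem aff_le_pot (y : Fin n → E d) (w : Fin n → ℝ) (i : Fin n) (x : E d) :
    aff y w i x ≤ pot y w x := le_ciSup (f := fun i => aff y w i x) (Finite.bddAbove_range _) i

theorem pot_eq_of_mem_cell (y : Fin n → E d) (w : Fin n → ℝ) {i : Fin n} {x : E d}
    (hx : x ∈ cell y w i) : pot y w x = aff y w i x := by
  haveI : Nonempty (Fin n) := ⟨i⟩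
  exact le_antisymm (ciSup_le hx) (aff_le_pot y w i x)

theorem exists_mem_cell (hn : 0 < n) (y : Fin n → E d) (w : Fin n → ℝ) (x : E d) :
    ∃ i, x ∈ cell y w i := by
  haveI : Nonempty (Fin n) := ⟨⟨0, hn⟩⟩
  obtain ⟨i, hi⟩ := Finite.exists_max (fun i => aff y w i x)
  exact ⟨i, hi⟩

theorem pot_convex (hn : 0 < n) (y : Fin n → E d) (w : Fin n → ℝ) : ConvexOn ℝ univ (pot y w) := by
  haveI : Nonempty (Fin n) := ⟨⟨0, hn⟩⟩
  refine ⟨convex_univ, fun a _ b _ s t hs ht hst => ?_⟩
  refine ciSup_le fun k => ?_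
  have h1 := aff_le_pot y w k a
  have h2 := aff_le_pot y w k b
  unfold aff at h1 h2 ⊢
  rw [inner_add_left, inner_smul_left, inner_smul_left, smul_eq_mul, smul_eq_mul]
  simp only [conj_trivial]
  have : w k = s * w k + t * w k := by rw [← add_mul, hst, one_mul]
  nlinarith [mul_le_mul_of_nonneg_left h1 hs, mul_le_mul_of_nonneg_left h2 ht]

theorem pot_lip (hn : 0 < n) (y : Fin n → E d) (w : Fin n → ℝ) (R : ℝ) (hy : ∀ i, ‖y i‖ ≤ R) (x x' : E d) :
    pot y w x - pot y w x' ≤ R * ‖x - x'‖ := by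
  obtain ⟨i, hi⟩ := exists_mem_cell hn y w x
  rw [pot_eq_of_mem_cell y w hi]
  have h1 := aff_le_pot y w i x'
  have h2 : aff y w i x - aff y w i x' = ⟪x - x', y i⟫_ℝ := by
    unfold aff
    rw [inner_sub_left]
    ring
  have h3 : ⟪x - x', y i⟫_ℝ ≤ ‖x - x'‖ * ‖y i‖ := real_inner_le_norm _ _
  have h4 : ‖x - x'‖ * ‖y i‖ ≤ ‖x - x'‖ * R := mul_le_mul_of_nonneg_left (hy i) (norm_nonneg _)
  linarith

theorem pot_subgradient (y : Fin n → E d) (w : Fin n → ℝ) {i : Fin n} {x : E d}
    (hx : x ∈ cell y w i) (z : E d) : pot y w x + ⟪y i, z - x⟫_ℝ ≤ pot y w z := by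
  rw [pot_eq_of_mem_cell y w hx]
  have h1 := aff_le_pot y w i z
  unfold aff at h1 ⊢
  rw [inner_sub_right, real_inner_comm z (y i), real_inner_comm x (y i)]
  linarith

theorem continuous_aff (y : Fin n → E d) (w : Fin n → ℝ) (i : Fin n) : Continuous (aff y w i) := by
  unfold aff
  fun_prop

theorem isClosed_cell (y : Fin n → E d) (w : Fin n → ℝ) (i : Fin n) : IsClosed (cell y w i) := by
  have : cell y w i = ⋂ j, {x | aff y w j x ≤ aff y w i x} := by
    ext x; simp [cell]
  rw [this]
  exact isClosed_iInter fun j => isClosed_le (continuous_aff y w j) (continuous_aff y w i)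

/-- two different cells overlap in a null set (a piece of a hyperplane) -/
theorem volume_cell_inter_cell (y : Fin n → E d) (hy : Function.Injective y) (w : Fin n → ℝ)
    {i j : Fin n} (hij : i ≠ j) : volume (cell y w i ∩ cell y w j) = 0 := by
  have hne : y i - y j ≠ 0 := sub_ne_zero.2 fun h => hij (hy h)
  refine measure_mono_null ?_ (volume_hyperplane (y i - y j) (w i - w j) hne)
  rintro x ⟨h1, h2⟩
  have h3 := h1 j
  have h4 := h2 i
  unfold aff at h3 h4
  show ⟪y i - y j, x⟫_ℝ = w i - w j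
  rw [inner_sub_left, real_inner_comm x (y i), real_inner_comm x (y j)]
  linarith

open Classical in
/-- selection of an active index along a list -/
noncomputable def selIdx (y : Fin n → E d) (w : Fin n → ℝ) (i0 : Fin n) :
    List (Fin n) → E d → Fin n
  | [], _ => i0
  | k :: l, x => if x ∈ cell y w k then k else selIdx y w i0 l x

theorem measurable_selIdx (y : Fin n → E d) (w : Fin n → ℝ) (i0 : Fin n) (l : List (Fin n)) :
    Measurable (selIdx y w i0 l) := by
  classical
  induction l with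
  | nil => exact measurable_const
  | cons k l ih =>
    have : selIdx y w i0 (k :: l) =
        fun x => if x ∈ cell y w k then k else selIdx y w i0 l x := by
      funext x
      rw [selIdx]
    rw [this]
    exact Measurable.ite (isClosed_cell y w k).measurableSet measurable_const ih

theorem selIdx_spec (y : Fin n → E d) (w : Fin n → ℝ) (i0 : Fin n) (l : List (Fin n)) (x : E d)
    (h : ∃ k ∈ l, x ∈ cell y w k) : x ∈ cell y w (selIdx y w i0 l x) := by
  induction l with
  | nil =>
    obtain ⟨k, hk, -⟩ := h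
    simp at hk
  | cons j l ih =>
    unfold selIdx
    by_cases hx : x ∈ cell y w j
    · rw [if_pos hx]
      exact hx
    · rw [if_neg hx]
      obtain ⟨k, hk, hxk⟩ := h
      rcases List.mem_cons.1 hk with rfl | hk'
      · exact absurd hxk hx
      · exact ih ⟨k, hk', hxk⟩

/-- a Borel selection of the active index -/
theorem exists_sel (hn : 0 < n) (y : Fin n → E d) (w : Fin n → ℝ) :
    ∃ sel : E d → Fin n, Measurable sel ∧ ∀ x, x ∈ cell y w (sel x) := by
  refine ⟨selIdx y w ⟨0, hn⟩ Finset.univ.toList, measurable_selIdx y w _ _, fun x => ?_⟩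
  obtain ⟨k, hk⟩ := exists_mem_cell hn y w x
  exact selIdx_spec y w _ _ x ⟨k, by simp, hk⟩

theorem volume_sel_preimage (y : Fin n → E d) (hy : Function.Injective y) (w : Fin n → ℝ)
    (sel : E d → Fin n) (hsel : Measurable sel) (hmem : ∀ x, x ∈ cell y w (sel x))
    (K : Set (E d)) (hK : MeasurableSet K) (i : Fin n) :
    volume (K ∩ sel ⁻¹' {i}) = volume (K ∩ cell y w i) := by
  refine le_antisymm (measure_mono ?_) ?_
  · rintro x ⟨hx, hxi⟩
    refine ⟨hx, ?_⟩
    have : sel x = i := hxi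
    rw [← this]
    exact hmem x
  · have hsub : K ∩ cell y w i ⊆ (K ∩ sel ⁻¹' {i}) ∪
        ⋃ j : {j : Fin n // j ≠ i}, (cell y w i ∩ cell y w j.1) := by
      rintro x ⟨hx, hxi⟩
      by_cases h : sel x = i
      · exact Or.inl ⟨hx, h⟩
      · exact Or.inr (mem_iUnion.2 ⟨⟨sel x, h⟩, hxi, hmem x⟩)
    calc volume (K ∩ cell y w i) ≤ volume ((K ∩ sel ⁻¹' {i}) ∪
        ⋃ j : {j : Fin n // j ≠ i}, (cell y w i ∩ cell y w j.1)) := measure_mono hsub
      _ ≤ volume (K ∩ sel ⁻¹' {i}) +
          volume (⋃ j : {j : Fin n // j ≠ i}, (cell y w i ∩ cell y w j.1)) := measure_union_le _ _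
      _ = volume (K ∩ sel ⁻¹' {i}) := by
          rw [measure_iUnion_null fun j => volume_cell_inter_cell y hy w j.2.symm, add_zero]

end Vale.Agent.Lib.P074
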