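import Vale.Agent.Lib.P074.Third.Disc

/-!
# P074: existence of the weights of a power diagram with prescribed cell masses
-/

open MeasureTheory Set Metric
open scoped InnerProductSpace ENNReal

namespace Vale.Agent.Lib.P074

variable {d n : ℕ}

theorem unif_apply_toReal (K : Set (E d)) (hK0 : volume K ≠ 0) (hKfin : volume K ≠ ∞)
    (A : Set (E d)) (hA : MeasurableSet A) :
    (volume (K ∩ A)).toReal = (unif K A).toReal * (volume K).toReal := by
  unfold unif
  rw [Measure.smul_apply, Measure.restrict_apply hA, smul_eq_mul, ENNReal.toReal_mul,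
    ENNReal.toReal_inv, inter_comm]
  have : (volume K).toReal ≠ 0 := (ENNReal.toReal_pos hK0 hKfin).ne'
  field_simp

/-- Semi-discrete optimal transport: for distinct sites and masses `m i ≥ 0` of total mass one there are
weights such that the cell of `y i` has volume `m i * |K|` inside `K`. -/
theorem exists_weights (K : Set (E d)) (hK : MeasurableSet K) (hK0 : volume K ≠ 0) (r : ℝ)
    (hKr : K ⊆ closedBall 0 r) (y : Fin n → E d) (hy : Function.Injective y) (m : Fin n → ℝ)
    (hm : ∀ i, 0 ≤ m i) (hsum : ∑ i, m i = 1) :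
    ∃ w : Fin n → ℝ, ∀ i, (volume (K ∩ cell y w i)).toReal = m i * (volume K).toReal := by
  classical
  have hKfin : volume K ≠ ∞ :=
    ((measure_mono hKr).trans_lt (isCompact_closedBall _ _).measure_lt_top).ne
  haveI := isProbabilityMeasure_unif K hKfin hK0
  -- the indices of positive mass
  have hex : ∃ i, 0 < m i := by
    by_contra hcon
    push Not at hcon
    have : ∑ i, m i ≤ 0 := Finset.sum_nonpos fun i _ => hcon i
    linarith
  obtain ⟨i0, hi0⟩ := hex
  haveI : Nonempty {i : Fin n // 0 < m i} := ⟨⟨i0, hi0⟩⟩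
  have hsum' : ∑ k : {i : Fin n // 0 < m i}, m k.1 = 1 := by
    have h1 : ∑ x ∈ Finset.univ.filter (fun i => 0 < m i), m x =
        ∑ k : {i : Fin n // 0 < m i}, m k.1 := Finset.sum_subtype _ (by simp) m
    have h2 : ∑ x ∈ Finset.univ.filter (fun i => 0 < m i), m x = ∑ i, m i := by
      refine Finset.sum_subset (Finset.filter_subset _ _) fun i _ hi => ?_
      simp only [Finset.mem_filter, Finset.mem_univ, true_and, not_lt] at hi
      exact le_antisymm hi (hm i)
    rw [← h1, h2, hsum]
  obtain ⟨w0, hw0, -⟩ := exists_weights_pos (unif K) r (unif_compl_ball K r hKr)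
    (fun a c ha => unif_hyperplane K a c ha) (fun k : {i : Fin n // 0 < m i} => y k.1)
    (fun a b hab => Subtype.ext (hy hab)) (fun k => m k.1) (fun k => k.2) hsum'
  -- a huge weight for the sites without mass
  set M : ℝ := ∑ i, ‖y i‖ with hM
  have hyM : ∀ i, ‖y i‖ ≤ M := fun i =>
    Finset.single_le_sum (f := fun i => ‖y i‖) (fun _ _ => norm_nonneg _) (Finset.mem_univ i)
  set B : ℝ := 2 * (M * r) + ‖w0‖ + 1 with hB
  set w : Fin n → ℝ := fun i => if h : 0 < m i then w0 ⟨i, h⟩ else B with hw
  have hwpos : ∀ (i : Fin n) (h : 0 < m i), w i = w0 ⟨i, h⟩ := fun i h => by simp [hw, h]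
  have hwzero : ∀ i : Fin n, ¬ 0 < m i → w i = B := fun i h => by simp [hw, h]
  have hinner : ∀ x ∈ K, ∀ i, |⟪x, y i⟫_ℝ| ≤ M * r := by
    intro x hx i
    have hx' : ‖x‖ ≤ r := mem_closedBall_zero_iff.1 (hKr hx)
    calc |⟪x, y i⟫_ℝ| ≤ ‖x‖ * ‖y i‖ := abs_real_inner_le_norm _ _
      _ ≤ r * M := mul_le_mul hx' (hyM i) (norm_nonneg _) ((norm_nonneg x).trans hx')
      _ = M * r := mul_comm _ _
  -- a site without mass is never active on `K`
  have hstrict : ∀ x ∈ K, ∀ i, ¬ 0 < m i → ∀ (k : Fin n), 0 < m k →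
      aff y w i x < aff y w k x := by
    intro x hx i hi k hk
    unfold aff
    rw [hwzero i hi, hwpos k hk]
    have h1 := hinner x hx i
    have h2 := hinner x hx k
    have h3 : |w0 ⟨k, hk⟩| ≤ ‖w0‖ := by
      rw [← Real.norm_eq_abs]
      exact norm_le_pi_norm w0 ⟨k, hk⟩
    have h4 := le_abs_self ⟪x, y i⟫_ℝ
    have h5 := neg_abs_le ⟪x, y k⟫_ℝ
    have h6 := le_abs_self (w0 ⟨k, hk⟩)
    rw [hB]
    linarith
  refine ⟨w, fun i => ?_⟩
  by_cases hi : 0 < m i
  · have hset : K ∩ cell y w i =
        K ∩ ccell (fun k : {i : Fin n // 0 < m i} => y k.1) w0 ⟨i, hi⟩ := by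
      ext x
      constructor
      · rintro ⟨hx, hc⟩
        refine ⟨hx, fun j => ?_⟩
        have := hc j.1
        unfold aff at this
        rw [hwpos j.1 j.2, hwpos i hi] at this
        rw [real_inner_comm x (y j.1), real_inner_comm x (y i)]
        exact this
      · rintro ⟨hx, hc⟩
        refine ⟨hx, fun j => ?_⟩
        by_cases hj : 0 < m j
        · have := hc ⟨j, hj⟩
          unfold aff
          rw [hwpos j hj, hwpos i hi]
          rw [real_inner_comm x (y j), real_inner_comm x (y i)] at this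
          exact this
        · exact (hstrict x hx j hj i hi).le
    rw [hset, unif_apply_toReal K hK0 hKfin _ (measurableSet_ccell _ _ _), hw0 ⟨i, hi⟩,
      ENNReal.toReal_ofReal hi.le]
  · have hset : K ∩ cell y w i = ∅ := by
      ext x
      simp only [mem_inter_iff, mem_empty_iff_false, iff_false, not_and]
      intro hx hc
      exact absurd (hc i0) (not_le.2 (hstrict x hx i hi i0 hi0))
    have hmi : m i = 0 := le_antisymm (not_lt.1 hi) (hm i)
    rw [hset, measure_empty, hmi]
    simp

end Vale.Agent.Lib.P074
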