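import Mathlib

/-!
# P074: the one-dimensional lemma on Legendre transforms of a maximum of affine functions
-/

open MeasureTheory Set

namespace Vale.Agent.Lib.P074

namespace LineAux

/-- the index `j` is active at `t` -/
def act (n : ℕ) (b c : ℕ → ℝ) (j : ℕ) (t : ℝ) : Prop := ∀ i < n, b i * t - c i ≤ b j * t - c j

/-- the points of `[lo, hi]` at which some index `< m` is active -/
def ini (n : ℕ) (b c : ℕ → ℝ) (lo hi : ℝ) (m : ℕ) : Set ℝ :=
  {t | t ∈ Icc lo hi ∧ ∃ j < m, act n b c j t}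

/-- the points of `[lo, hi]` at which some index in `[m, n)` is active -/
def fin' (n : ℕ) (b c : ℕ → ℝ) (lo hi : ℝ) (m : ℕ) : Set ℝ :=
  {t | t ∈ Icc lo hi ∧ ∃ j < n, m ≤ j ∧ act n b c j t}

variable {n : ℕ} {b c : ℕ → ℝ}

theorem b_lt (hb : ∀ k, k + 1 < n → b k < b (k + 1)) : ∀ j, j < n → ∀ i < j, b i < b j := by
  intro j
  induction j with
  | zero => intro _ i hi; omega
  | succ j ih =>
    intro hj i hi
    have h1 : b j < b (j + 1) := hb j hj
    rcases Nat.lt_succ_iff_lt_or_eq.1 hi with h | h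
    · exact (ih (by omega) i h).trans h1
    · rw [h]; exact h1

theorem b_le (hb : ∀ k, k + 1 < n → b k < b (k + 1)) {i j : ℕ} (hj : j < n) (hij : i ≤ j) :
    b i ≤ b j := by
  rcases Nat.lt_or_eq_of_le hij with h | h
  · exact (b_lt hb j hj i h).le
  · rw [h]

theorem exists_act (hn : 0 < n) (t : ℝ) : ∃ j < n, act n b c j t := by
  obtain ⟨j, hj, hmax⟩ := Finset.exists_max_image (Finset.range n) (fun i => b i * t - c i)
    ⟨0, Finset.mem_range.2 hn⟩
  exact ⟨j, Finset.mem_range.1 hj, fun i hi => hmax i (Finset.mem_range.2 hi)⟩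

theorem act_mono (hb : ∀ k, k + 1 < n → b k < b (k + 1)) {j j' : ℕ} {t t' : ℝ} (hj : j < n)
    (hj' : j' < n) (h : act n b c j t) (h' : act n b c j' t') (htt : t < t') : j ≤ j' := by
  by_contra hcon
  push_neg at hcon
  have h1 := h j' hj'
  have h2 := h' j hj
  have h3 : b j' < b j := b_lt hb j hj j' hcon
  nlinarith [mul_pos (sub_pos.2 h3) (sub_pos.2 htt)]

theorem isClosed_act (j : ℕ) : IsClosed {t | act n b c j t} := by
  have : {t | act n b c j t} = ⋂ i, ⋂ (_ : i < n), {t | b i * t - c i ≤ b j * t - c j} := by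
    ext t; simp [act]
  rw [this]
  exact isClosed_iInter fun i => isClosed_iInter fun _ =>
    isClosed_le (by fun_prop) (by fun_prop)

theorem isClosed_ini (lo hi : ℝ) (m : ℕ) : IsClosed (ini n b c lo hi m) := by
  have : ini n b c lo hi m = Icc lo hi ∩ ⋃ j ∈ Finset.range m, {t | act n b c j t} := by
    ext t; simp [ini]
  rw [this]
  exact isClosed_Icc.inter (isClosed_biUnion_finset fun j _ => isClosed_act j)

theorem isClosed_fin' (lo hi : ℝ) (m : ℕ) : IsClosed (fin' n b c lo hi m) := by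
  have : fin' n b c lo hi m =
      Icc lo hi ∩ ⋃ j ∈ (Finset.range n).filter (fun j => m ≤ j), {t | act n b c j t} := by
    ext t; simp [fin', and_assoc]
  rw [this]
  exact isClosed_Icc.inter (isClosed_biUnion_finset fun j _ => isClosed_act j)

theorem ini_subset (lo hi : ℝ) (m : ℕ) : ini n b c lo hi m ⊆ Icc lo hi := fun _ h => h.1

theorem ini_down (hb : ∀ k, k + 1 < n → b k < b (k + 1)) (hn : 0 < n) {lo hi : ℝ} {m : ℕ}
    (hm : m ≤ n) {t t' : ℝ} (ht : t ∈ ini n b c lo hi m) (h1 : lo ≤ t') (h2 : t' ≤ t) :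
    t' ∈ ini n b c lo hi m := by
  obtain ⟨hI, j, hj, hact⟩ := ht
  rcases eq_or_lt_of_le h2 with h | h
  · rw [h]; exact ⟨hI, j, hj, hact⟩
  obtain ⟨j', hj', hact'⟩ := exists_act (b := b) (c := c) hn t'
  have := act_mono hb hj' (by omega) hact' hact h
  exact ⟨⟨h1, h2.trans hI.2⟩, j', by omega, hact'⟩

/-- the end point of the initial segment -/
noncomputable def tau (n : ℕ) (b c : ℕ → ℝ) (lo hi : ℝ) (m : ℕ) : ℝ :=
  lo + (volume (ini n b c lo hi m)).toReal

theorem vol_ini_ne_top (lo hi : ℝ) (m : ℕ) : volume (ini n b c lo hi m) ≠ ⊤ :=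
  ((measure_mono (ini_subset lo hi m)).trans_lt (by simp)).ne

theorem le_tau (hb : ∀ k, k + 1 < n → b k < b (k + 1)) (hn : 0 < n) {lo hi : ℝ} {m : ℕ}
    (hm : m ≤ n) {t : ℝ} (ht : t ∈ ini n b c lo hi m) : t ≤ tau n b c lo hi m := by
  have hsub : Icc lo t ⊆ ini n b c lo hi m := fun t' h' => ini_down hb hn hm ht h'.1 h'.2
  have h1 := measure_mono (μ := volume) hsub
  rw [Real.volume_Icc, ENNReal.ofReal_le_iff_le_toReal (vol_ini_ne_top lo hi m)] at h1
  unfold tau
  linarith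

theorem tau_le_of_not_mem (hb : ∀ k, k + 1 < n → b k < b (k + 1)) (hn : 0 < n) {lo hi : ℝ} {m : ℕ}
    (hm : m ≤ n) {t : ℝ} (hI : t ∈ Icc lo hi) (ht : t ∉ ini n b c lo hi m) :
    tau n b c lo hi m ≤ t := by
  have hsub : ini n b c lo hi m ⊆ Icc lo t := by
    intro t' h'
    refine ⟨h'.1.1, ?_⟩
    by_contra hcon
    push_neg at hcon
    exact ht (ini_down hb hn hm h' hI.1 hcon.le)
  have h1 := measure_mono (μ := volume) hsub
  rw [Real.volume_Icc] at h1
  have := ENNReal.toReal_le_of_le_ofReal (sub_nonneg.2 hI.1) h1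
  unfold tau
  linarith

theorem lo_le_tau (lo hi : ℝ) (m : ℕ) : lo ≤ tau n b c lo hi m := by
  unfold tau
  have : 0 ≤ (volume (ini n b c lo hi m)).toReal := ENNReal.toReal_nonneg
  linarith

theorem tau_le_hi {lo hi : ℝ} (h : lo ≤ hi) (m : ℕ) : tau n b c lo hi m ≤ hi := by
  have h1 := measure_mono (μ := volume) (ini_subset (n := n) (b := b) (c := c) lo hi m)
  rw [Real.volume_Icc] at h1
  have := ENNReal.toReal_le_of_le_ofReal (sub_nonneg.2 h) h1
  unfold tau
  linarith

theorem tau_zero (lo hi : ℝ) : tau n b c lo hi 0 = lo := by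
  have : ini n b c lo hi 0 = ∅ := by
    ext t; simp [ini]
  simp [tau, this]

theorem tau_n (hn : 0 < n) {lo hi : ℝ} (h : lo ≤ hi) : tau n b c lo hi n = hi := by
  have : ini n b c lo hi n = Icc lo hi := by
    ext t
    exact ⟨fun ht => ht.1, fun ht => ⟨ht, exists_act hn t⟩⟩
  unfold tau
  rw [this, Real.volume_Icc, ENNReal.toReal_ofReal (sub_nonneg.2 h)]
  ring

theorem tau_mono (lo hi : ℝ) (m : ℕ) : tau n b c lo hi m ≤ tau n b c lo hi (m + 1) := by
  have hsub : ini n b c lo hi m ⊆ ini n b c lo hi (m + 1) := by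
    rintro t ⟨hI, j, hj, hact⟩
    exact ⟨hI, j, by omega, hact⟩
  have := ENNReal.toReal_mono (vol_ini_ne_top lo hi (m + 1)) (measure_mono (μ := volume) hsub)
  unfold tau
  linarith

/-- the section of the cell `m` is `[tau m, tau (m+1)]` up to end points -/
theorem vol_cell (hb : ∀ k, k + 1 < n → b k < b (k + 1)) {lo hi : ℝ} (h : lo ≤ hi) {m : ℕ}
    (hm : m < n) :
    (volume {t | t ∈ Icc lo hi ∧ ∀ i < n, b i * t - c i ≤ b m * t - c m}).toReal =
      tau n b c lo hi (m + 1) - tau n b c lo hi m := by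
  have hn : 0 < n := by omega
  set I : Set ℝ := {t | t ∈ Icc lo hi ∧ ∀ i < n, b i * t - c i ≤ b m * t - c m} with hI
  have h1 : Ioo (tau n b c lo hi m) (tau n b c lo hi (m + 1)) ⊆ I := by
    intro t ht
    have htI : t ∈ Icc lo hi :=
      ⟨(lo_le_tau lo hi m).trans ht.1.le, ht.2.le.trans (tau_le_hi h (m + 1))⟩
    have hmem : t ∈ ini n b c lo hi (m + 1) := by
      by_contra hcon
      exact absurd (tau_le_of_not_mem hb hn (by omega) htI hcon) (not_le.2 ht.2)
    obtain ⟨_, j, hj, hact⟩ := hmem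
    rcases Nat.lt_succ_iff_lt_or_eq.1 hj with hlt | heq
    · exact absurd (le_tau hb hn (by omega) (⟨htI, j, hlt, hact⟩ : t ∈ ini n b c lo hi m))
        (not_le.2 ht.1)
    · rw [heq] at hact
      exact ⟨htI, hact⟩
  have h2 : I ⊆ Icc (tau n b c lo hi m) (tau n b c lo hi (m + 1)) := by
    intro t ht
    refine ⟨?_, le_tau hb hn (by omega) ⟨ht.1, m, by omega, ht.2⟩⟩
    by_contra hcon
    push_neg at hcon
    set t'' := (t + tau n b c lo hi m) / 2 with ht''
    have ha : t < t'' := by rw [ht'']; linarith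
    have hb' : t'' < tau n b c lo hi m := by rw [ht'']; linarith
    have htI : t'' ∈ Icc lo hi := ⟨ht.1.1.trans ha.le, hb'.le.trans (tau_le_hi h m)⟩
    have hmem : t'' ∈ ini n b c lo hi m := by
      by_contra hc
      exact absurd (tau_le_of_not_mem hb hn (by omega) htI hc) (not_le.2 hb')
    obtain ⟨_, j, hj, hact⟩ := hmem
    have := act_mono hb hm (by omega) ht.2 hact ha
    omega
  have e1 := measure_mono (μ := volume) h1
  have e2 := measure_mono (μ := volume) h2
  rw [Real.volume_Ioo] at e1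
  rw [Real.volume_Icc] at e2
  rw [le_antisymm e2 e1, ENNReal.toReal_ofReal (sub_nonneg.2 (tau_mono lo hi m))]

theorem sum_vol (hb : ∀ k, k + 1 < n → b k < b (k + 1)) {lo hi : ℝ} (h : lo ≤ hi) :
    ∀ m, m ≤ n → ∑ j ∈ Finset.range m,
      (volume {t | t ∈ Icc lo hi ∧ ∀ i < n, b i * t - c i ≤ b j * t - c j}).toReal =
        tau n b c lo hi m - lo := by
  intro m
  induction m with
  | zero => intro _; simp [tau_zero]
  | succ m ih =>
    intro hm
    rw [Finset.sum_range_succ, ih (by omega), vol_cell hb h (by omega)]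
    ring

end LineAux

open LineAux

/-- `u = max_{j<n} (b_j t - c_j)` on `[lo, hi]`, slopes strictly increasing in `j`.  Then
`max_t (b_{k+1} t - u) - max_t (b_k t - u) = (b_{k+1} - b_k) (lo + |{t : some active index is ≤ k}|)`. -/
theorem line_step (n : ℕ) (b c : ℕ → ℝ) (hb : ∀ k, k + 1 < n → b k < b (k + 1)) (lo hi : ℝ)
    (h : lo ≤ hi) (k : ℕ) (hk : k + 1 < n) :
    sSup ((fun t => b (k + 1) * t - ⨆ j : Fin n, (b j * t - c j)) '' Icc lo hi) -
      sSup ((fun t => b k * t - ⨆ j : Fin n, (b j * t - c j)) '' Icc lo hi) =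
    (b (k + 1) - b k) * (lo + ∑ j ∈ Finset.range (k + 1),
        (volume {t | t ∈ Icc lo hi ∧ ∀ i < n, b i * t - c i ≤ b j * t - c j}).toReal) := by
  have hn : 0 < n := by omega
  rw [sum_vol hb h (k + 1) (by omega)]
  set τ := tau n b c lo hi (k + 1) with hτ
  have hτI : τ ∈ Icc lo hi := ⟨lo_le_tau lo hi _, tau_le_hi h _⟩
  set u : ℝ → ℝ := fun t => ⨆ j : Fin n, (b j * t - c j) with hu
  have hle : ∀ t, ∀ j < n, b j * t - c j ≤ u t := by
    intro t j hj
    exact le_ciSup (f := fun j : Fin n => b j * t - c j) (Finite.bddAbove_range _) ⟨j, hj⟩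
  have hact : ∀ t j, j < n → act n b c j t → u t = b j * t - c j := by
    intro t j hj ha
    haveI : Nonempty (Fin n) := ⟨⟨0, hn⟩⟩
    exact le_antisymm (ciSup_le fun i => ha i i.2) (hle t j hj)
  -- an index `≤ k` is active at `τ` if `lo < τ`
  have hleft : lo < τ → ∃ j ≤ k, act n b c j τ := by
    intro hlt
    have hsub : Ico lo τ ⊆ ini n b c lo hi (k + 1) := by
      intro t ht
      by_contra hcon
      exact absurd (tau_le_of_not_mem hb hn (by omega) ⟨ht.1, ht.2.le.trans hτI.2⟩ hcon)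
        (not_le.2 ht.2)
    have hcl := (isClosed_ini (n := n) (b := b) (c := c) lo hi (k + 1)).closure_subset_iff.2 hsub
    rw [closure_Ico hlt.ne] at hcl
    obtain ⟨_, j, hj, ha⟩ := hcl ⟨hlt.le, le_rfl⟩
    exact ⟨j, by omega, ha⟩
  -- an index `≥ k+1` is active at `τ` if `τ < hi`
  have hright : τ < hi → ∃ j < n, k + 1 ≤ j ∧ act n b c j τ := by
    intro hlt
    have hsub : Ioc τ hi ⊆ fin' n b c lo hi (k + 1) := by
      intro t ht
      have htI : t ∈ Icc lo hi := ⟨hτI.1.trans ht.1.le, ht.2⟩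
      obtain ⟨j, hj, ha⟩ := exists_act (b := b) (c := c) hn t
      refine ⟨htI, j, hj, ?_, ha⟩
      by_contra hcon
      push_neg at hcon
      exact absurd (le_tau hb hn (by omega) (⟨htI, j, hcon, ha⟩ : t ∈ ini n b c lo hi (k + 1)))
        (not_le.2 ht.1)
    have hcl := (isClosed_fin' (n := n) (b := b) (c := c) lo hi (k + 1)).closure_subset_iff.2 hsub
    rw [closure_Ioc hlt.ne] at hcl
    obtain ⟨_, j, hj, hkj, ha⟩ := hcl ⟨le_rfl, hlt.le⟩
    exact ⟨j, hj, hkj, ha⟩
  -- `τ` maximises `β t - u t` for `b k ≤ β ≤ b (k+1)`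
  have hmax : ∀ β, b k ≤ β → β ≤ b (k + 1) →
      sSup ((fun t => β * t - u t) '' Icc lo hi) = β * τ - u τ := by
    intro β h1 h2
    refine IsGreatest.csSup_eq ⟨⟨τ, hτI, rfl⟩, ?_⟩
    rintro _ ⟨t, ht, rfl⟩
    simp only
    rcases lt_trichotomy t τ with hlt | heq | hgt
    · obtain ⟨j, hj, ha⟩ := hleft (ht.1.trans_lt hlt)
      have e1 := hact τ j (by omega) ha
      have e2 := hle t j (by omega)
      have e3 : b j ≤ β := (b_le hb (by omega) hj).trans h1
      nlinarith [mul_nonneg (sub_nonneg.2 e3) (sub_nonneg.2 hlt.le)]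
    · rw [heq]
    · obtain ⟨j, hj, hkj, ha⟩ := hright (hgt.trans_le ht.2)
      have e1 := hact τ j hj ha
      have e2 := hle t j hj
      have e3 : β ≤ b j := h2.trans (b_le hb hj hkj)
      nlinarith [mul_nonneg (sub_nonneg.2 e3) (sub_nonneg.2 hgt.le)]
  have hbk : b k < b (k + 1) := hb k hk
  rw [hmax (b (k + 1)) hbk.le le_rfl, hmax (b k) le_rfl hbk.le]
  ring

/-- the sections of the cells tile `[lo, hi]` -/
theorem line_sum (n : ℕ) (hn : 0 < n) (b c : ℕ → ℝ) (hb : ∀ k, k + 1 < n → b k < b (k + 1)) (lo hi : ℝ)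
    (h : lo ≤ hi) :
    ∑ j ∈ Finset.range n,
        (volume {t | t ∈ Icc lo hi ∧ ∀ i < n, b i * t - c i ≤ b j * t - c j}).toReal = hi - lo := by
  rw [sum_vol hb h n le_rfl, tau_n hn h]

end Vale.Agent.Lib.P074
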