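import Mathlib

/-!
# P074: the abstract one-dimensional core of the sup-norm stability of potentials (d = 2)

Levels `k < n` (sorted by the second coordinate `b k` of the sites), `P k s` is the one-variable
Legendre transform at level `b k` on the line `x₁ = s`, `lam k s` the length of the section of
the `k`-th cell.  If the first coordinates of the sites of two such systems differ by at most `r`
and the cells have the same masses, the transforms differ by at most `r (β - α) / 2` up to a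
constant.
-/

open MeasureTheory Set
open scoped Interval

namespace Vale.Agent.Lib.P074.SCore

/-- one side of the comparison -/
structure Side (n : ℕ) (α β : ℝ) (b : ℕ → ℝ) (bot : ℝ → ℝ) (a w : ℕ → ℝ)
    (P lam : ℕ → ℝ → ℝ) : Prop where
  conc : ∀ k < n, ConcaveOn ℝ (Icc α β) (P k)
  pint : ∀ k < n, IntervalIntegrable (P k) volume α β
  le : ∀ k < n, ∀ s ∈ Icc α β, P k s ≤ w k - a k * s
  eq : ∀ k < n, ∀ s ∈ Icc α β, 0 < lam k s → P k s = w k - a k * s
  nonneg : ∀ k < n, ∀ s ∈ Icc α β, 0 ≤ lam k s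
  integ : ∀ k < n, IntervalIntegrable (lam k) volume α β
  step : ∀ k, k + 1 < n → ∀ s ∈ Icc α β,
    P (k + 1) s - P k s = (b (k + 1) - b k) * (bot s + ∑ j ∈ Finset.range (k + 1), lam j s)
  len : ContinuousOn (fun s => ∑ j ∈ Finset.range n, lam j s) (Ioo α β)

/-- slope bound to the left of a touching point -/
theorem slope_left {α β : ℝ} {f : ℝ → ℝ} (hf : ConcaveOn ℝ (Icc α β) f) {w a : ℝ}
    (hle : ∀ s ∈ Icc α β, f s ≤ w - a * s) {σ : ℝ} (hσ : σ ∈ Icc α β) (heq : f σ = w - a * σ)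
    {x y : ℝ} (hx : x ∈ Icc α β) (hxy : x ≤ y) (hy : y ≤ σ) : -a * (y - x) ≤ f y - f x := by
  rcases eq_or_lt_of_le (hxy.trans hy) with h | h
  · have : y = x := le_antisymm (by linarith) hxy
    subst this; simp
  · set θ := (y - x) / (σ - x) with hθ
    have hd : 0 < σ - x := by linarith
    have h0 : 0 ≤ θ := div_nonneg (by linarith) hd.le
    have h1 : θ ≤ 1 := by rw [hθ, div_le_one hd]; linarith
    have hmul : θ * (σ - x) = y - x := by rw [hθ]; field_simp
    have key := hf.2 hx hσ (by linarith : (0:ℝ) ≤ 1 - θ) h0 (by ring)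
    simp only [smul_eq_mul] at key
    have hyy : (1 - θ) * x + θ * σ = y := by nlinarith
    rw [hyy, heq] at key
    have hfx := hle x hx
    have h2 : θ * (w - a * σ - (w - a * x)) ≤ θ * (w - a * σ - f x) :=
      mul_le_mul_of_nonneg_left (by linarith) h0
    have h3 : θ * (w - a * σ - (w - a * x)) = -a * (y - x) := by rw [← hmul]; ring
    have h4 : θ * (w - a * σ - f x) = θ * (w - a * σ) - θ * f x := by ring
    have h5 : (1 - θ) * f x = f x - θ * f x := by ring
    linarith

/-- slope bound to the right of a touching point -/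
theorem slope_right {α β : ℝ} {f : ℝ → ℝ} (hf : ConcaveOn ℝ (Icc α β) f) {w a : ℝ}
    (hle : ∀ s ∈ Icc α β, f s ≤ w - a * s) {σ : ℝ} (hσ : σ ∈ Icc α β) (heq : f σ = w - a * σ)
    {x y : ℝ} (hy : y ∈ Icc α β) (hx : σ ≤ x) (hxy : x ≤ y) : f y - f x ≤ -a * (y - x) := by
  rcases eq_or_lt_of_le (hx.trans hxy) with h | h
  · have : y = x := le_antisymm (by linarith) hxy
    subst this; simp
  · set θ := (y - x) / (y - σ) with hθ
    have hd : 0 < y - σ := by linarith
    have h0 : 0 ≤ θ := div_nonneg (by linarith) hd.le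
    have h1 : θ ≤ 1 := by rw [hθ, div_le_one hd]; linarith
    have hmul : θ * (y - σ) = y - x := by rw [hθ]; field_simp
    have key := hf.2 hσ hy h0 (by linarith : (0:ℝ) ≤ 1 - θ) (by ring)
    simp only [smul_eq_mul] at key
    have hyy : θ * σ + (1 - θ) * y = x := by nlinarith
    rw [hyy, heq] at key
    have hfy := hle y hy
    have h2 : θ * (w - a * σ - (w - a * y)) ≤ θ * (w - a * σ - f y) :=
      mul_le_mul_of_nonneg_left (by linarith) h0
    have h3 : θ * (w - a * σ - (w - a * y)) = a * (y - x) := by rw [← hmul]; ring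
    have h4 : θ * (w - a * σ - f y) = θ * (w - a * σ) - θ * f y := by ring
    have h5 : (1 - θ) * f y = f y - θ * f y := by ring
    linarith

theorem integral_eq_zero_of_Ioo {f : ℝ → ℝ} {x y : ℝ} (hxy : x ≤ y)
    (h : ∀ σ ∈ Ioo x y, f σ = 0) : ∫ σ in x..y, f σ = 0 := by
  rw [intervalIntegral.integral_of_le hxy, integral_Ioc_eq_integral_Ioo]
  exact setIntegral_eq_zero_of_forall_eq_zero h

/-- the second difference of the primitive of `g - f` at `s` -/
theorem second_diff {α β : ℝ} {f g : ℝ → ℝ}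
    (hαβ : α ≤ β)
    (hf : ConcaveOn ℝ (Icc α β) f) (hfc : IntervalIntegrable f volume α β) {w a : ℝ}
    (hfle : ∀ s ∈ Icc α β, f s ≤ w - a * s) {σ0 : ℝ} (hσ0 : σ0 ∈ Icc α β)
    (hf0 : f σ0 = w - a * σ0)
    (hg : ConcaveOn ℝ (Icc α β) g) (hgc : IntervalIntegrable g volume α β) {w' a' : ℝ}
    (hgle : ∀ s ∈ Icc α β, g s ≤ w' - a' * s) {σ1 : ℝ} (hσ1 : σ1 ∈ Icc α β)
    (hg1 : g σ1 = w' - a' * σ1)
    {s t r : ℝ} (ht : 0 ≤ t) (h0 : σ0 ≤ s - t) (h1 : s + t ≤ σ1) (har : |a - a'| ≤ r) :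
    -r * t ^ 2 ≤ (∫ σ in s..(s + t), (g σ - f σ)) - ∫ σ in (s - t)..s, (g σ - f σ) := by
  have hκ : IntervalIntegrable (fun σ => g σ - f σ) volume α β := hgc.sub hfc
  have e1 : ∫ σ in s..(s + t), (g σ - f σ) = ∫ τ in (0:ℝ)..t, (g (s + τ) - f (s + τ)) := by
    rw [intervalIntegral.integral_comp_add_left (fun σ => g σ - f σ)]; simp
  have e2 : ∫ σ in (s - t)..s, (g σ - f σ) = ∫ τ in (0:ℝ)..t, (g (s - τ) - f (s - τ)) := by
    rw [intervalIntegral.integral_comp_sub_left (fun σ => g σ - f σ)]; simp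
  have m1 : MapsTo (fun τ : ℝ => s + τ) (Icc 0 t) (Icc α β) := by
    intro τ hτ
    exact ⟨by linarith [hσ0.1, hτ.1], by linarith [hσ1.2, hτ.2]⟩
  have m2 : MapsTo (fun τ : ℝ => s - τ) (Icc 0 t) (Icc α β) := by
    intro τ hτ
    exact ⟨by linarith [hσ0.1, hτ.2], by linarith [hσ1.2, hτ.1]⟩
  have ms : s ∈ Icc α β := by simpa using m1 (left_mem_Icc.2 ht)
  have msp : s + t ∈ Icc α β := m1 (right_mem_Icc.2 ht)
  have msm : s - t ∈ Icc α β := m2 (right_mem_Icc.2 ht)
  have sub1 : uIcc s (s + t) ⊆ uIcc α β := by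
    rw [uIcc_of_le hαβ, uIcc_of_le (by linarith)]; exact Icc_subset_Icc ms.1 msp.2
  have sub2 : uIcc s (s - t) ⊆ uIcc α β := by
    rw [uIcc_of_le hαβ, uIcc_of_ge (by linarith)]; exact Icc_subset_Icc msm.1 ms.2
  have i1 : IntervalIntegrable (fun τ => g (s + τ) - f (s + τ)) volume 0 t := by
    have := (hκ.mono_set sub1).comp_add_left s
    simpa using this
  have i2 : IntervalIntegrable (fun τ => g (s - τ) - f (s - τ)) volume 0 t := by
    have := (hκ.mono_set sub2).comp_sub_left s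
    simpa using this
  rw [e1, e2, ← intervalIntegral.integral_sub i1 i2]
  have e3 : ∫ τ in (0:ℝ)..t, (-(2 * r)) * τ = -r * t ^ 2 := by
    rw [intervalIntegral.integral_const_mul, integral_id]; ring
  rw [← e3]
  refine intervalIntegral.integral_mono_on ht
    ((by fun_prop : Continuous fun τ : ℝ => (-(2 * r)) * τ).intervalIntegrable _ _)
    (i1.sub i2) ?_
  intro τ hτ
  have a1 := slope_left hg hgle hσ1 hg1 (m2 hτ) (by linarith [hτ.1] : s - τ ≤ s + τ)
    (by linarith [hτ.2])
  have a2 := slope_right hf hfle hσ0 hf0 (m1 hτ) (by linarith [hτ.2] : σ0 ≤ s - τ)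
    (by linarith [hτ.1] : s - τ ≤ s + τ)
  have a3 := abs_le.1 har
  have a4 : (a - a') * τ ≥ -r * τ := by nlinarith [hτ.1, a3.1]
  nlinarith

/-- integral of the difference of the transforms at level `k` -/
noncomputable def Th (P P' : ℕ → ℝ → ℝ) (k : ℕ) (x y : ℝ) : ℝ := ∫ σ in x..y, (P' k σ - P k σ)

/-- difference of the masses of the `j`-th cells in a slab -/
noncomputable def Dm (lam lam' : ℕ → ℝ → ℝ) (j : ℕ) (x y : ℝ) : ℝ :=
  (∫ σ in x..y, lam' j σ) - ∫ σ in x..y, lam j σ

/-- cumulated difference of masses -/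
noncomputable def Am (lam lam' : ℕ → ℝ → ℝ) (m : ℕ) (x y : ℝ) : ℝ :=
  ∑ j ∈ Finset.range m, Dm lam lam' j x y

section general

variable {n : ℕ} {α β : ℝ} {b : ℕ → ℝ} {bot : ℝ → ℝ} {a w a' w' : ℕ → ℝ}
  {P lam P' lam' : ℕ → ℝ → ℝ}

theorem uIcc_sub {x y : ℝ} (hx : x ∈ Icc α β) (hy : y ∈ Icc α β) : uIcc x y ⊆ Icc α β := by
  intro z hz
  rcases Set.mem_uIcc.1 hz with h | h
  · exact ⟨hx.1.trans h.1, h.2.trans hy.2⟩
  · exact ⟨hy.1.trans h.1, h.2.trans hx.2⟩

theorem Side.lamInt (h : Side n α β b bot a w P lam) (hαβ : α ≤ β) {k : ℕ} (hk : k < n) {x y : ℝ}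
    (hx : x ∈ Icc α β) (hy : y ∈ Icc α β) : IntervalIntegrable (lam k) volume x y :=
  (h.integ k hk).mono_set (by rw [uIcc_of_le hαβ]; exact uIcc_sub hx hy)

theorem Side.PInt (h : Side n α β b bot a w P lam) (hαβ : α ≤ β) {k : ℕ} (hk : k < n) {x y : ℝ}
    (hx : x ∈ Icc α β) (hy : y ∈ Icc α β) : IntervalIntegrable (P k) volume x y :=
  (h.pint k hk).mono_set (by rw [uIcc_of_le hαβ]; exact uIcc_sub hx hy)

theorem Side.contIoo (h : Side n α β b bot a w P lam) {k : ℕ} (hk : k < n) :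
    ContinuousOn (P k) (Ioo α β) := by
  have := (h.conc k hk).continuousOn_interior
  rwa [interior_Icc] at this

theorem th_step (hαβ : α ≤ β) (h : Side n α β b bot a w P lam)
    (h' : Side n α β b bot a' w' P' lam') {k : ℕ} (hk : k + 1 < n) {x y : ℝ}
    (hx : x ∈ Icc α β) (hy : y ∈ Icc α β) :
    Th P P' (k + 1) x y - Th P P' k x y = (b (k + 1) - b k) * Am lam lam' (k + 1) x y := by
  have hk0 : k < n := by omega
  unfold Th Am Dm
  rw [← intervalIntegral.integral_sub ((h'.PInt hαβ hk hx hy).sub (h.PInt hαβ hk hx hy))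
    ((h'.PInt hαβ hk0 hx hy).sub (h.PInt hαβ hk0 hx hy))]
  have hc : ∀ σ ∈ uIcc x y, (P' (k + 1) σ - P (k + 1) σ - (P' k σ - P k σ)) =
      (b (k + 1) - b k) * (∑ j ∈ Finset.range (k + 1), lam' j σ
        - ∑ j ∈ Finset.range (k + 1), lam j σ) := by
    intro σ hσ
    have h1 := h.step k hk σ (uIcc_sub hx hy hσ)
    have h2 := h'.step k hk σ (uIcc_sub hx hy hσ)
    have : P' (k + 1) σ - P (k + 1) σ - (P' k σ - P k σ)
        = (P' (k + 1) σ - P' k σ) - (P (k + 1) σ - P k σ) := by ring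
    rw [this, h1, h2]; ring
  rw [intervalIntegral.integral_congr hc, intervalIntegral.integral_const_mul]
  congr 1
  have I1 : ∀ j ∈ Finset.range (k + 1), IntervalIntegrable (lam' j) volume x y := fun j hj =>
    h'.lamInt hαβ (by have := Finset.mem_range.1 hj; omega) hx hy
  have I2 : ∀ j ∈ Finset.range (k + 1), IntervalIntegrable (lam j) volume x y := fun j hj =>
    h.lamInt hαβ (by have := Finset.mem_range.1 hj; omega) hx hy
  rw [intervalIntegral.integral_sub, intervalIntegral.integral_finsetSum I1,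
    intervalIntegral.integral_finsetSum I2, Finset.sum_sub_distrib]
  · have := IntervalIntegrable.sum _ I1
    have e : (fun σ => ∑ j ∈ Finset.range (k + 1), lam' j σ)
        = ∑ j ∈ Finset.range (k + 1), lam' j := by ext σ; simp
    rw [e]; exact this
  · have := IntervalIntegrable.sum _ I2
    have e : (fun σ => ∑ j ∈ Finset.range (k + 1), lam j σ)
        = ∑ j ∈ Finset.range (k + 1), lam j := by ext σ; simp
    rw [e]; exact this

theorem am_top (hαβ : α ≤ β) (h : Side n α β b bot a w P lam)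
    (h' : Side n α β b bot a' w' P' lam')
    (hsum : ∀ s ∈ Icc α β, ∑ j ∈ Finset.range n, lam j s = ∑ j ∈ Finset.range n, lam' j s)
    {x y : ℝ} (hx : x ∈ Icc α β) (hy : y ∈ Icc α β) : Am lam lam' n x y = 0 := by
  unfold Am Dm
  have I1 : ∀ j ∈ Finset.range n, IntervalIntegrable (lam' j) volume x y := fun j hj =>
    h'.lamInt hαβ (Finset.mem_range.1 hj) hx hy
  have I2 : ∀ j ∈ Finset.range n, IntervalIntegrable (lam j) volume x y := fun j hj =>
    h.lamInt hαβ (Finset.mem_range.1 hj) hx hy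
  rw [Finset.sum_sub_distrib, ← intervalIntegral.integral_finsetSum I1,
    ← intervalIntegral.integral_finsetSum I2, sub_eq_zero]
  exact intervalIntegral.integral_congr fun σ hσ => (hsum σ (uIcc_sub hx hy hσ)).symm

theorem th_total (hαβ : α ≤ β) (h : Side n α β b bot a w P lam)
    (h' : Side n α β b bot a' w' P' lam')
    (hmass : ∀ k < n, ∫ s in α..β, lam k s = ∫ s in α..β, lam' k s)
    (hnorm : Th P P' 0 α β = 0) : ∀ k < n, Th P P' k α β = 0 := by
  intro k
  induction k with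
  | zero => intro _; exact hnorm
  | succ k ih =>
    intro hk
    have h1 := th_step hαβ h h' hk (left_mem_Icc.2 hαβ) (right_mem_Icc.2 hαβ)
    have h2 : Am lam lam' (k + 1) α β = 0 := by
      unfold Am Dm
      refine Finset.sum_eq_zero fun j hj => ?_
      rw [hmass j (by have := Finset.mem_range.1 hj; omega), sub_self]
    rw [h2, ih (by omega)] at h1
    linarith

theorem Side.cumCont (h : Side n α β b bot a w P lam) (hb : ∀ k, k + 1 < n → b k < b (k + 1))
    (hbot : ContinuousOn bot (Ioo α β)) :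
    ∀ m ≤ n, ContinuousOn (fun s => ∑ j ∈ Finset.range m, lam j s) (Ioo α β) := by
  intro m hm
  rcases m with _ | k
  · simpa using continuousOn_const
  · by_cases hk : k + 1 < n
    · have hc : ContinuousOn (fun s => (P (k + 1) s - P k s) / (b (k + 1) - b k) - bot s)
          (Ioo α β) :=
        (((h.contIoo hk).sub (h.contIoo (by omega : k < n))).div_const _).sub hbot
      refine hc.congr fun s hs => ?_
      have hne : b (k + 1) - b k ≠ 0 := by have := hb k hk; intro h0; linarith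
      simp only []
      rw [h.step k hk s (Ioo_subset_Icc_self hs)]
      field_simp
      ring
    · have : k + 1 = n := by omega
      rw [this]; exact h.len

theorem Side.lamCont (h : Side n α β b bot a w P lam) (hb : ∀ k, k + 1 < n → b k < b (k + 1))
    (hbot : ContinuousOn bot (Ioo α β)) {k : ℕ} (hk : k < n) : ContinuousOn (lam k) (Ioo α β) := by
  have h1 := h.cumCont hb hbot (k + 1) (by omega)
  have h2 := h.cumCont hb hbot k (by omega)
  refine (h1.sub h2).congr fun s _ => ?_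
  simp [Finset.sum_range_succ]

theorem th_add (hαβ : α ≤ β) {k : ℕ} (hk : k < n) (h : Side n α β b bot a w P lam)
    (h' : Side n α β b bot a' w' P' lam') {x y z : ℝ}
    (hx : x ∈ Icc α β) (hy : y ∈ Icc α β) (hz : z ∈ Icc α β) :
    Th P P' k x y + Th P P' k y z = Th P P' k x z :=
  intervalIntegral.integral_add_adjacent_intervals
    ((h'.PInt hαβ hk hx hy).sub (h.PInt hαβ hk hx hy)) ((h'.PInt hαβ hk hy hz).sub (h.PInt hαβ hk hy hz))

/-- the barrier -/
noncomputable def bar (α β u : ℝ) : ℝ := u * ((β - α) - u) / 2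

/-- conditions at the right end of a maximising interval -/
theorem right_end (hαβ : α ≤ β) (h : Side n α β b bot a w P lam)
    (h' : Side n α β b bot a' w' P' lam')
    {r r' : ℝ} (hr' : r < r') {k : ℕ} (hk : k < n) (ha : |a k - a' k| ≤ r) {s' s M : ℝ}
    (h1 : α ≤ s') (h2 : s' < s) (h3 : s ≤ β)
    (hmax : ∀ y, s' ≤ y → y ≤ β → Th P P' k s' y - r' * bar α β (y - s') ≤ M)
    (hM : Th P P' k s' s - r' * bar α β (s - s') = M) :
    (∀ σ ∈ Ioc s β, lam' k σ = 0) ∨ (∀ σ ∈ Ico α s, lam k σ = 0) := by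
  by_contra hcon
  push Not at hcon
  obtain ⟨⟨σ1, hσ1, hl1⟩, σ0, hσ0, hl0⟩ := hcon
  have m1 : σ1 ∈ Icc α β := ⟨by linarith [hσ1.1], hσ1.2⟩
  have m0 : σ0 ∈ Icc α β := ⟨hσ0.1, by linarith [hσ0.2]⟩
  have p1 : 0 < lam' k σ1 := lt_of_le_of_ne (h'.nonneg k hk σ1 m1) (Ne.symm hl1)
  have p0 : 0 < lam k σ0 := lt_of_le_of_ne (h.nonneg k hk σ0 m0) (Ne.symm hl0)
  set t := min (σ1 - s) (min (s - σ0) (s - s')) with ht
  have t1 : t ≤ σ1 - s := min_le_left _ _
  have t2 : t ≤ s - σ0 := (min_le_right _ _).trans (min_le_left _ _)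
  have t3 : t ≤ s - s' := (min_le_right _ _).trans (min_le_right _ _)
  have tpos : 0 < t := by
    rw [ht]; refine lt_min (by linarith [hσ1.1]) (lt_min (by linarith [hσ0.2]) (by linarith))
  have sd := second_diff hαβ (h.conc k hk) (h.pint k hk) (h.le k hk) m0 (h.eq k hk σ0 m0 p0)
    (h'.conc k hk) (h'.pint k hk) (h'.le k hk) m1 (h'.eq k hk σ1 m1 p1) tpos.le
    (by linarith : σ0 ≤ s - t) (by linarith : s + t ≤ σ1) ha
  have ms' : s' ∈ Icc α β := ⟨h1, by linarith⟩
  have ms : s ∈ Icc α β := ⟨by linarith, h3⟩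
  have msp : s + t ∈ Icc α β := ⟨by linarith, by linarith [hσ1.2]⟩
  have msm : s - t ∈ Icc α β := ⟨by linarith, by linarith⟩
  have e1 := th_add hαβ hk h h' ms' ms msp
  have e2 := th_add hαβ hk h h' ms' msm ms
  have q1 := hmax (s + t) (by linarith) msp.2
  have q2 := hmax (s - t) (by linarith) msm.2
  have e3 : Th P P' k s (s + t) - Th P P' k (s - t) s ≥ -r * t ^ 2 := sd
  have e4 : bar α β (s + t - s') + bar α β (s - t - s') - 2 * bar α β (s - s') = -t ^ 2 := by
    unfold bar; ring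
  have e5 : r' * bar α β (s + t - s') + r' * bar α β (s - t - s')
      - 2 * (r' * bar α β (s - s')) = -(r' * t ^ 2) := by linear_combination r' * e4
  have e6 : r' * t ^ 2 ≤ r * t ^ 2 := by linarith
  have e7 : r * t ^ 2 < r' * t ^ 2 := mul_lt_mul_of_pos_right hr' (by positivity)
  linarith

/-- conditions at the left end of a maximising interval -/
theorem left_end (hαβ : α ≤ β) (h : Side n α β b bot a w P lam)
    (h' : Side n α β b bot a' w' P' lam')
    {r r' : ℝ} (hr' : r < r') {k : ℕ} (hk : k < n) (ha : |a k - a' k| ≤ r) {s' s M : ℝ}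
    (h1 : α ≤ s') (h2 : s' < s) (h3 : s ≤ β)
    (hmax : ∀ x, α ≤ x → x ≤ s → Th P P' k x s - r' * bar α β (s - x) ≤ M)
    (hM : Th P P' k s' s - r' * bar α β (s - s') = M) :
    (∀ σ ∈ Ico α s', lam' k σ = 0) ∨ (∀ σ ∈ Ioc s' β, lam k σ = 0) := by
  by_contra hcon
  push Not at hcon
  obtain ⟨⟨σ0, hσ0, hl0⟩, σ1, hσ1, hl1⟩ := hcon
  have m1 : σ1 ∈ Icc α β := ⟨by linarith [hσ1.1], hσ1.2⟩
  have m0 : σ0 ∈ Icc α β := ⟨hσ0.1, by linarith [hσ0.2]⟩
  have p1 : 0 < lam k σ1 := lt_of_le_of_ne (h.nonneg k hk σ1 m1) (Ne.symm hl1)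
  have p0 : 0 < lam' k σ0 := lt_of_le_of_ne (h'.nonneg k hk σ0 m0) (Ne.symm hl0)
  set t := min (σ1 - s') (min (s' - σ0) (s - s')) with ht
  have t1 : t ≤ σ1 - s' := min_le_left _ _
  have t2 : t ≤ s' - σ0 := (min_le_right _ _).trans (min_le_left _ _)
  have t3 : t ≤ s - s' := (min_le_right _ _).trans (min_le_right _ _)
  have tpos : 0 < t := by
    rw [ht]; refine lt_min (by linarith [hσ1.1]) (lt_min (by linarith [hσ0.2]) (by linarith))
  have ha2 : |a' k - a k| ≤ r := by rw [abs_sub_comm]; exact ha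
  have sd := second_diff hαβ (h'.conc k hk) (h'.pint k hk) (h'.le k hk) m0 (h'.eq k hk σ0 m0 p0)
    (h.conc k hk) (h.pint k hk) (h.le k hk) m1 (h.eq k hk σ1 m1 p1) tpos.le
    (by linarith : σ0 ≤ s' - t) (by linarith : s' + t ≤ σ1) ha2
  have hneg : ∀ x y, ∫ σ in x..y, (P k σ - P' k σ) = -Th P P' k x y := by
    intro x y
    unfold Th
    rw [← intervalIntegral.integral_neg]
    congr 1
    ext σ; ring
  rw [hneg, hneg] at sd
  have ms' : s' ∈ Icc α β := ⟨h1, by linarith⟩
  have ms : s ∈ Icc α β := ⟨by linarith, h3⟩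
  have msp : s' + t ∈ Icc α β := ⟨by linarith, by linarith⟩
  have msm : s' - t ∈ Icc α β := ⟨by linarith [hσ0.1], by linarith⟩
  have e1 := th_add hαβ hk h h' msm ms' ms
  have e2 := th_add hαβ hk h h' ms' msp ms
  have q1 := hmax (s' - t) msm.1 (by linarith)
  have q2 := hmax (s' + t) msp.1 (by linarith)
  have e4 : bar α β (s - (s' - t)) + bar α β (s - (s' + t)) - 2 * bar α β (s - s') = -t ^ 2 := by
    unfold bar; ring
  have e5 : r' * bar α β (s - (s' - t)) + r' * bar α β (s - (s' + t))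
      - 2 * (r' * bar α β (s - s')) = -(r' * t ^ 2) := by linear_combination r' * e4
  have e6 : r' * t ^ 2 ≤ r * t ^ 2 := by linarith
  have e7 : r * t ^ 2 < r' * t ^ 2 := mul_lt_mul_of_pos_right hr' (by positivity)
  linarith

theorem lam_split (h : Side n α β b bot a w P lam) (hαβ : α ≤ β) {k : ℕ} (hk : k < n) {s' s : ℝ}
    (ms' : s' ∈ Icc α β) (ms : s ∈ Icc α β) :
    ∫ σ in α..β, lam k σ
      = (∫ σ in α..s', lam k σ) + (∫ σ in s'..s, lam k σ) + ∫ σ in s..β, lam k σ := by
  have mα : α ∈ Icc α β := left_mem_Icc.2 hαβ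
  have mβ : β ∈ Icc α β := right_mem_Icc.2 hαβ
  rw [intervalIntegral.integral_add_adjacent_intervals (h.lamInt hαβ hk mα ms')
    (h.lamInt hαβ hk ms' ms),
    intervalIntegral.integral_add_adjacent_intervals (h.lamInt hαβ hk mα ms)
    (h.lamInt hαβ hk ms mβ)]

theorem lam_int_nonneg (h : Side n α β b bot a w P lam) {k : ℕ} (hk : k < n) {x y : ℝ}
    (hx : α ≤ x) (hxy : x ≤ y) (hy : y ≤ β) : 0 ≤ ∫ σ in x..y, lam k σ :=
  intervalIntegral.integral_nonneg hxy fun u hu =>
    h.nonneg k hk u ⟨hx.trans hu.1, hu.2.trans hy⟩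

/-- in a maximising configuration the primed cell has at least as much mass in the slab;
moreover the excess dominates the mass of the unprimed cell outside the slab when the unprimed
cell is seen from both ends -/
theorem dm_nonneg (h : Side n α β b bot a w P lam) (h' : Side n α β b bot a' w' P' lam')
    (hαβ : α ≤ β) {k : ℕ} (hk : k < n)
    (hmass : ∫ s in α..β, lam k s = ∫ s in α..β, lam' k s) {s' s : ℝ}
    (h1 : α ≤ s') (h2 : s' ≤ s) (h3 : s ≤ β)
    (hR : (∀ σ ∈ Ioc s β, lam' k σ = 0) ∨ (∀ σ ∈ Ico α s, lam k σ = 0))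
    (hL : (∀ σ ∈ Ico α s', lam' k σ = 0) ∨ (∀ σ ∈ Ioc s' β, lam k σ = 0)) :
    0 ≤ Dm lam lam' k s' s := by
  have ms' : s' ∈ Icc α β := ⟨h1, by linarith⟩
  have ms : s ∈ Icc α β := ⟨by linarith, h3⟩
  unfold Dm
  have n' := lam_int_nonneg h' hk h1 h2 h3
  rcases hR with hR | hR
  · rcases hL with hL | hL
    · have z1 : ∫ σ in α..s', lam' k σ = 0 :=
        integral_eq_zero_of_Ioo h1 fun σ hσ => hL σ ⟨hσ.1.le, hσ.2⟩
      have z2 : ∫ σ in s..β, lam' k σ = 0 :=
        integral_eq_zero_of_Ioo h3 fun σ hσ => hR σ ⟨hσ.1, hσ.2.le⟩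
      have s1 := lam_split h' hαβ hk ms' ms
      have s2 := lam_split h hαβ hk ms' ms
      have n1 := lam_int_nonneg h hk le_rfl h1 (by linarith : s' ≤ β)
      have n2 := lam_int_nonneg h hk (by linarith : α ≤ s) h3 le_rfl
      linarith
    · have z : ∫ σ in s'..s, lam k σ = 0 :=
        integral_eq_zero_of_Ioo h2 fun σ hσ => hL σ ⟨hσ.1, by linarith [hσ.2]⟩
      linarith
  · have z : ∫ σ in s'..s, lam k σ = 0 :=
      integral_eq_zero_of_Ioo h2 fun σ hσ => hR σ ⟨by linarith [hσ.1], hσ.2⟩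
    linarith

theorem near_pos {f : ℝ → ℝ} (hf : ContinuousOn f (Ioo α β)) {p : ℝ} (hp : p ∈ Ioo α β)
    (hpos : 0 < f p) : ∃ δ > 0, ∀ σ, |σ - p| < δ → f p / 2 < f σ := by
  have hc : ContinuousAt f p := hf.continuousAt (Ioo_mem_nhds hp.1 hp.2)
  have := hc.eventually (lt_mem_nhds (by linarith : f p / 2 < f p))
  obtain ⟨δ, hδ, hh⟩ := Metric.eventually_nhds_iff.1 this
  exact ⟨δ, hδ, fun σ hσ => hh (by rwa [Real.dist_eq])⟩

theorem int_pos_right (h : Side n α β b bot a w P lam) (hαβ : α ≤ β) {k : ℕ} (hk : k < n)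
    (hc : ContinuousOn (lam k) (Ioo α β)) {p y : ℝ} (hp : p ∈ Ioo α β) (hpos : 0 < lam k p)
    (hpy : p < y) (hy : y ≤ β) : 0 < ∫ σ in p..y, lam k σ := by
  obtain ⟨δ, hδ, hh⟩ := near_pos hc hp hpos
  set η := min (δ / 2) (y - p) with hη
  have η1 : η ≤ δ / 2 := min_le_left _ _
  have η2 : η ≤ y - p := min_le_right _ _
  have ηpos : 0 < η := lt_min (by linarith) (by linarith)
  have mp : p ∈ Icc α β := Ioo_subset_Icc_self hp
  have mq : p + η ∈ Icc α β := ⟨by linarith [hp.1], by linarith⟩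
  have my : y ∈ Icc α β := ⟨by linarith [hp.1], hy⟩
  have e := intervalIntegral.integral_add_adjacent_intervals (h.lamInt hαβ hk mp mq)
    (h.lamInt hαβ hk mq my)
  have n2 := lam_int_nonneg h hk mq.1 (by linarith : p + η ≤ y) hy
  have n1 : η * (lam k p / 2) ≤ ∫ σ in p..(p + η), lam k σ := by
    have : ∫ _σ in p..(p + η), (lam k p / 2) = η * (lam k p / 2) := by
      rw [intervalIntegral.integral_const]; simp
    rw [← this]
    refine intervalIntegral.integral_mono_on (by linarith) intervalIntegrable_const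
      (h.lamInt hαβ hk mp mq) fun σ hσ => (hh σ ?_).le
    rw [abs_lt]; constructor <;> linarith [hσ.1, hσ.2]
  have : 0 < η * (lam k p / 2) := by positivity
  linarith

theorem int_pos_left (h : Side n α β b bot a w P lam) (hαβ : α ≤ β) {k : ℕ} (hk : k < n)
    (hc : ContinuousOn (lam k) (Ioo α β)) {p x : ℝ} (hp : p ∈ Ioo α β) (hpos : 0 < lam k p)
    (hx : α ≤ x) (hxp : x < p) : 0 < ∫ σ in x..p, lam k σ := by
  obtain ⟨δ, hδ, hh⟩ := near_pos hc hp hpos
  set η := min (δ / 2) (p - x) with hη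
  have η1 : η ≤ δ / 2 := min_le_left _ _
  have η2 : η ≤ p - x := min_le_right _ _
  have ηpos : 0 < η := lt_min (by linarith) (by linarith)
  have mp : p ∈ Icc α β := Ioo_subset_Icc_self hp
  have mq : p - η ∈ Icc α β := ⟨by linarith, by linarith [hp.2]⟩
  have mx : x ∈ Icc α β := ⟨hx, by linarith [hp.2]⟩
  have e := intervalIntegral.integral_add_adjacent_intervals (h.lamInt hαβ hk mx mq)
    (h.lamInt hαβ hk mq mp)
  have n2 := lam_int_nonneg h hk hx (by linarith : x ≤ p - η) mq.2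
  have n1 : η * (lam k p / 2) ≤ ∫ σ in (p - η)..p, lam k σ := by
    have : ∫ _σ in (p - η)..p, (lam k p / 2) = η * (lam k p / 2) := by
      rw [intervalIntegral.integral_const]; simp
    rw [← this]
    refine intervalIntegral.integral_mono_on (by linarith) intervalIntegrable_const
      (h.lamInt hαβ hk mq mp) fun σ hσ => (hh σ ?_).le
    rw [abs_lt]; constructor <;> linarith [hσ.1, hσ.2]
  have : 0 < η * (lam k p / 2) := by positivity
  linarith

/-- strict version at an end point of the slab interior to `(α, β)` -/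
theorem dm_pos (h : Side n α β b bot a w P lam) (h' : Side n α β b bot a' w' P' lam')
    (hαβ : α ≤ β) {k : ℕ} (hk : k < n) (hc : ContinuousOn (lam k) (Ioo α β))
    (hmass : ∫ s in α..β, lam k s = ∫ s in α..β, lam' k s) {s' s : ℝ}
    (h1 : α ≤ s') (h2 : s' < s) (h3 : s ≤ β)
    (hR : (∀ σ ∈ Ioc s β, lam' k σ = 0) ∨ (∀ σ ∈ Ico α s, lam k σ = 0))
    (hL : (∀ σ ∈ Ico α s', lam' k σ = 0) ∨ (∀ σ ∈ Ioc s' β, lam k σ = 0))
    (hend : (s < β ∧ 0 < lam k s) ∨ (α < s' ∧ 0 < lam k s')) :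
    0 < Dm lam lam' k s' s := by
  have ms' : s' ∈ Icc α β := ⟨h1, by linarith⟩
  have ms : s ∈ Icc α β := ⟨by linarith, h3⟩
  -- the unprimed cell is seen on both sides
  have hR' : ∀ σ ∈ Ioc s β, lam' k σ = 0 := by
    rcases hR with hR | hR
    · exact hR
    · exfalso
      rcases hend with ⟨hs, hp⟩ | ⟨hs, hp⟩
      · have := int_pos_left h hαβ hk hc ⟨by linarith, hs⟩ hp h1 h2
        rw [integral_eq_zero_of_Ioo h2.le fun σ hσ => hR σ ⟨by linarith [hσ.1], hσ.2⟩] at this
        exact lt_irrefl _ this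
      · have := hR s' ⟨h1, h2⟩
        linarith
  have hL' : ∀ σ ∈ Ico α s', lam' k σ = 0 := by
    rcases hL with hL | hL
    · exact hL
    · exfalso
      rcases hend with ⟨hs, hp⟩ | ⟨hs, hp⟩
      · have := hL s ⟨h2, h3⟩
        linarith
      · have := int_pos_right h hαβ hk hc ⟨hs, by linarith⟩ hp h2 h3
        rw [integral_eq_zero_of_Ioo h2.le fun σ hσ => hL σ ⟨hσ.1, by linarith [hσ.2]⟩] at this
        exact lt_irrefl _ this
  unfold Dm
  have z1 : ∫ σ in α..s', lam' k σ = 0 :=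
    integral_eq_zero_of_Ioo h1 fun σ hσ => hL' σ ⟨hσ.1.le, hσ.2⟩
  have z2 : ∫ σ in s..β, lam' k σ = 0 :=
    integral_eq_zero_of_Ioo h3 fun σ hσ => hR' σ ⟨hσ.1, hσ.2.le⟩
  have s1 := lam_split h' hαβ hk ms' ms
  have s2 := lam_split h hαβ hk ms' ms
  have n1 := lam_int_nonneg h hk le_rfl h1 (by linarith : s' ≤ β)
  have n2 := lam_int_nonneg h hk (by linarith : α ≤ s) h3 le_rfl
  rcases hend with ⟨hs, hp⟩ | ⟨hs, hp⟩
  · have := int_pos_right h hαβ hk hc ⟨by linarith, hs⟩ hp hs le_rfl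
    linarith
  · have := int_pos_left h hαβ hk hc ⟨hs, by linarith⟩ hp le_rfl hs
    linarith

/-- existence of a global maximiser of the doubled functional -/
theorem exists_max (hn : 0 < n) (hαβ : α ≤ β) (h : Side n α β b bot a w P lam)
    (h' : Side n α β b bot a' w' P' lam') (r' : ℝ) :
    ∃ k0 < n, ∃ s' s : ℝ, α ≤ s' ∧ s' ≤ s ∧ s ≤ β ∧
      ∀ k < n, ∀ x y : ℝ, α ≤ x → x ≤ y → y ≤ β →
        Th P P' k x y - r' * bar α β (y - x) ≤ Th P P' k0 s' s - r' * bar α β (s - s') := by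
  set C : Set (ℝ × ℝ) := (Icc α β ×ˢ Icc α β) ∩ {p | p.1 ≤ p.2} with hC
  have hCc : IsCompact C :=
    (isCompact_Icc.prod isCompact_Icc).inter_right (isClosed_le continuous_fst continuous_snd)
  have hCne : C.Nonempty := ⟨(α, α), ⟨⟨left_mem_Icc.2 hαβ, left_mem_Icc.2 hαβ⟩, le_refl α⟩⟩
  have hEc : ∀ k < n, ContinuousOn
      (fun p : ℝ × ℝ => Th P P' k p.1 p.2 - r' * bar α β (p.2 - p.1)) C := by
    intro k hk
    have hF : ContinuousOn (fun z => ∫ σ in α..z, (P' k σ - P k σ)) (Icc α β) := by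
      have hI : IntegrableOn (fun σ => P' k σ - P k σ) (uIcc α β) volume := by
        have := (h'.pint k hk).sub (h.pint k hk)
        rw [intervalIntegrable_iff'] at this
        exact this
      have := intervalIntegral.continuousOn_primitive_interval hI
      rwa [uIcc_of_le hαβ] at this
    have h1 : ContinuousOn (fun p : ℝ × ℝ => (∫ σ in α..p.2, (P' k σ - P k σ))
        - (∫ σ in α..p.1, (P' k σ - P k σ)) - r' * bar α β (p.2 - p.1)) C := by
      refine ContinuousOn.sub (ContinuousOn.sub ?_ ?_) ?_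
      · exact hF.comp continuousOn_snd fun p hp => hp.1.2
      · exact hF.comp continuousOn_fst fun p hp => hp.1.1
      · unfold bar; fun_prop
    refine h1.congr fun p hp => ?_
    have mα : α ∈ Icc α β := left_mem_Icc.2 hαβ
    simp only []
    rw [intervalIntegral.integral_interval_sub_left
      ((h'.PInt hαβ hk mα hp.1.2).sub (h.PInt hαβ hk mα hp.1.2))
      ((h'.PInt hαβ hk mα hp.1.1).sub (h.PInt hαβ hk mα hp.1.1))]
    rfl
  have hex : ∀ k ∈ Finset.range n, ∃ p ∈ C, ∀ q ∈ C,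
      Th P P' k q.1 q.2 - r' * bar α β (q.2 - q.1)
        ≤ Th P P' k p.1 p.2 - r' * bar α β (p.2 - p.1) := by
    intro k hk
    obtain ⟨p, hp, hmax⟩ := hCc.exists_isMaxOn hCne (hEc k (Finset.mem_range.1 hk))
    exact ⟨p, hp, fun q hq => hmax hq⟩
  choose! pk hpk hpmax using hex
  obtain ⟨k0, hk0, hbest⟩ := Finset.exists_max_image (Finset.range n)
    (fun k => Th P P' k (pk k).1 (pk k).2 - r' * bar α β ((pk k).2 - (pk k).1))
    ⟨0, Finset.mem_range.2 hn⟩
  refine ⟨k0, Finset.mem_range.1 hk0, (pk k0).1, (pk k0).2, (hpk k0 hk0).1.1.1, (hpk k0 hk0).2,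
    (hpk k0 hk0).1.2.2, ?_⟩
  intro k hk x y hx hxy hy
  have hkr := Finset.mem_range.2 hk
  exact (hpmax k hkr (x, y) ⟨⟨⟨hx, hxy.trans hy⟩, ⟨hx.trans hxy, hy⟩⟩, hxy⟩).trans (hbest k hkr)

/-- the doubled maximum principle -/
theorem core_le (hn : 0 < n) (hαβ : α < β) (h : Side n α β b bot a w P lam)
    (h' : Side n α β b bot a' w' P' lam') (hb : ∀ k, k + 1 < n → b k < b (k + 1))
    (hbot : ContinuousOn bot (Ioo α β)) {r r' : ℝ} (hr' : r < r')
    (ha : ∀ k < n, |a k - a' k| ≤ r)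
    (hsum : ∀ s ∈ Icc α β, ∑ j ∈ Finset.range n, lam j s = ∑ j ∈ Finset.range n, lam' j s)
    (hpos : ∀ s ∈ Ioo α β, 0 < ∑ j ∈ Finset.range n, lam j s)
    (hmass : ∀ k < n, ∫ s in α..β, lam k s = ∫ s in α..β, lam' k s)
    (hnorm : Th P P' 0 α β = 0) :
    ∀ k < n, ∀ x y : ℝ, α ≤ x → x ≤ y → y ≤ β → Th P P' k x y ≤ r' * bar α β (y - x) := by
  have hle := hαβ.le
  obtain ⟨k0, hk0, s', s, h1, h2', h3, hglob⟩ := exists_max hn hle h h' r'
  set M := Th P P' k0 s' s - r' * bar α β (s - s') with hM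
  by_cases hMpos : M ≤ 0
  · intro k hk x y hx hxy hy
    have := hglob k hk x y hx hxy hy
    linarith
  exfalso
  push Not at hMpos
  have ms' : s' ∈ Icc α β := ⟨h1, h2'.trans h3⟩
  have ms : s ∈ Icc α β := ⟨h1.trans h2', h3⟩
  have h2 : s' < s := by
    rcases eq_or_lt_of_le h2' with e | e
    · exfalso
      rw [hM, e] at hMpos
      simp [Th, bar] at hMpos
    · exact e
  have hnot : ¬ (s' = α ∧ s = β) := by
    rintro ⟨e1, e2⟩
    rw [hM, e1, e2, th_total hle h h' hmass hnorm k0 hk0] at hMpos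
    simp [bar] at hMpos
  -- analysis of a maximising level
  have key : ∀ k < n, Th P P' k s' s - r' * bar α β (s - s') = M →
      ((∀ σ ∈ Ioc s β, lam' k σ = 0) ∨ (∀ σ ∈ Ico α s, lam k σ = 0)) ∧
      ((∀ σ ∈ Ico α s', lam' k σ = 0) ∨ (∀ σ ∈ Ioc s' β, lam k σ = 0)) ∧
      Am lam lam' k s' s = 0 ∧ Am lam lam' (k + 1) s' s = 0 := by
    intro k hk hkM
    have hR := right_end hle h h' hr' hk (ha k hk) h1 h2 h3
      (fun y hy1 hy2 => hglob k hk s' y h1 hy1 hy2) hkM
    have hL := left_end hle h h' hr' hk (ha k hk) h1 h2 h3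
      (fun x hx1 hx2 => hglob k hk x s hx1 hx2 h3) hkM
    have hD := dm_nonneg h h' hle hk (hmass k hk) h1 h2.le h3 hR hL
    have hup : Am lam lam' (k + 1) s' s ≤ 0 := by
      by_cases hk1 : k + 1 < n
      · have e := th_step hle h h' hk1 ms' ms
        have g := hglob (k + 1) hk1 s' s h1 h2.le h3
        have hbk := hb k hk1
        have : (b (k + 1) - b k) * Am lam lam' (k + 1) s' s ≤ 0 := by linarith
        by_contra hc
        push Not at hc
        have : 0 < (b (k + 1) - b k) * Am lam lam' (k + 1) s' s := mul_pos (by linarith) hc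
        linarith
      · have : k + 1 = n := by omega
        rw [this, am_top hle h h' hsum ms' ms]
    have hlow : 0 ≤ Am lam lam' k s' s := by
      rcases k with _ | j
      · simp [Am]
      · have e := th_step hle h h' hk ms' ms
        have g := hglob j (by omega) s' s h1 h2.le h3
        have hbk := hb j hk
        have : 0 ≤ (b (j + 1) - b j) * Am lam lam' (j + 1) s' s := by linarith
        by_contra hc
        push Not at hc
        have : (b (j + 1) - b j) * Am lam lam' (j + 1) s' s < 0 :=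
          mul_neg_of_pos_of_neg (by linarith) hc
        linarith
    have hsucc : Am lam lam' (k + 1) s' s = Am lam lam' k s' s + Dm lam lam' k s' s := by
      unfold Am; rw [Finset.sum_range_succ]
    refine ⟨hR, hL, by linarith, by linarith⟩
  have up : ∀ j, k0 + j < n → Th P P' (k0 + j) s' s - r' * bar α β (s - s') = M := by
    intro j
    induction j with
    | zero => intro _; rfl
    | succ j ih =>
      intro hj
      have hj' : k0 + j < n := by omega
      have e := th_step hle h h' (k := k0 + j) (by omega) ms' ms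
      rw [(key _ hj' (ih hj')).2.2.2] at e
      have := ih hj'
      have e2 : k0 + (j + 1) = k0 + j + 1 := by ring
      rw [e2]
      linarith
  have down : ∀ j, j ≤ k0 → Th P P' (k0 - j) s' s - r' * bar α β (s - s') = M := by
    intro j
    induction j with
    | zero => intro _; rfl
    | succ j ih =>
      intro hj
      have hj' : k0 - j < n := by omega
      have e3 : k0 - j = (k0 - (j + 1)) + 1 := by omega
      have e := th_step hle h h' (k := k0 - (j + 1)) (by omega) ms' ms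
      have kk := (key _ hj' (ih (by omega))).2.2.1
      rw [e3] at kk
      rw [kk] at e
      have := ih (by omega)
      rw [e3] at this
      linarith
  have all : ∀ k < n, Th P P' k s' s - r' * bar α β (s - s') = M := by
    intro k hk
    rcases le_total k0 k with hkk | hkk
    · have := up (k - k0) (by omega)
      rwa [show k0 + (k - k0) = k by omega] at this
    · have := down (k0 - k) (by omega)
      rwa [show k0 - (k0 - k) = k by omega] at this
  -- an end point interior to the big interval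
  have hend : ∃ p ∈ Ioo α β, (p = s ∧ s < β) ∨ (p = s' ∧ α < s') := by
    by_cases hs : s < β
    · exact ⟨s, ⟨by linarith, hs⟩, Or.inl ⟨rfl, hs⟩⟩
    · have hsβ : s = β := le_antisymm h3 (not_lt.1 hs)
      have : α < s' := by
        rcases eq_or_lt_of_le h1 with e | e
        · exact absurd ⟨e.symm, hsβ⟩ hnot
        · exact e
      exact ⟨s', ⟨this, by linarith⟩, Or.inr ⟨rfl, this⟩⟩
  obtain ⟨p, hp, hpp⟩ := hend
  obtain ⟨k, hk, hkpos⟩ : ∃ k ∈ Finset.range n, 0 < lam k p := by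
    by_contra hc
    push Not at hc
    have := Finset.sum_nonpos hc
    linarith [hpos p hp]
  have hk := Finset.mem_range.1 hk
  obtain ⟨hR, hL, hA0, hA1⟩ := key k hk (all k hk)
  have hsucc : Am lam lam' (k + 1) s' s = Am lam lam' k s' s + Dm lam lam' k s' s := by
    unfold Am; rw [Finset.sum_range_succ]
  have hDpos := dm_pos h h' hle hk (h.lamCont hb hbot hk) (hmass k hk) h1 h2 h3 hR hL (by
    rcases hpp with ⟨e, hs⟩ | ⟨e, hs⟩
    · left; exact ⟨hs, e ▸ hkpos⟩
    · right; exact ⟨hs, e ▸ hkpos⟩)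
  linarith

/-- pointwise one-sided bound -/
theorem core_pt (hn : 0 < n) (hαβ : α < β) (h : Side n α β b bot a w P lam)
    (h' : Side n α β b bot a' w' P' lam') (hb : ∀ k, k + 1 < n → b k < b (k + 1))
    (hbot : ContinuousOn bot (Ioo α β)) {r : ℝ} (hr : 0 ≤ r)
    (ha : ∀ k < n, |a k - a' k| ≤ r)
    (hsum : ∀ s ∈ Icc α β, ∑ j ∈ Finset.range n, lam j s = ∑ j ∈ Finset.range n, lam' j s)
    (hpos : ∀ s ∈ Ioo α β, 0 < ∑ j ∈ Finset.range n, lam j s)
    (hmass : ∀ k < n, ∫ s in α..β, lam k s = ∫ s in α..β, lam' k s)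
    (hnorm : Th P P' 0 α β = 0) :
    ∀ k < n, ∀ s ∈ Ioo α β, P' k s - P k s ≤ r * (β - α) / 2 := by
  intro k hk s0 hs0
  have hle := hαβ.le
  have hw : 0 < β - α := by linarith
  have main : ∀ r' > r, P' k s0 - P k s0 ≤ r' * (β - α) / 2 := by
    intro r' hr'
    by_contra hc
    push Not at hc
    set v := P' k s0 - P k s0 with hv
    set m := (v + r' * (β - α) / 2) / 2 with hm
    have hcont : ContinuousOn (fun σ => P' k σ - P k σ) (Ioo α β) :=
      (h'.contIoo hk).sub (h.contIoo hk)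
    have hcat : ContinuousAt (fun σ => P' k σ - P k σ) s0 :=
      hcont.continuousAt (Ioo_mem_nhds hs0.1 hs0.2)
    have hev := hcat.eventually (lt_mem_nhds (by rw [hm]; linarith : m < P' k s0 - P k s0))
    obtain ⟨δ, hδ, hh⟩ := Metric.eventually_nhds_iff.1 hev
    set η := min (δ / 2) (β - s0) with hη
    have η1 : η ≤ δ / 2 := min_le_left _ _
    have η2 : η ≤ β - s0 := min_le_right _ _
    have ηpos : 0 < η := lt_min (by linarith) (by linarith [hs0.2])
    have mp : s0 ∈ Icc α β := Ioo_subset_Icc_self hs0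
    have mq : s0 + η ∈ Icc α β := ⟨by linarith [hs0.1], by linarith⟩
    have upper := core_le hn hαβ h h' hb hbot hr' ha hsum hpos hmass hnorm k hk s0 (s0 + η)
      hs0.1.le (by linarith) mq.2
    have lower : η * m ≤ Th P P' k s0 (s0 + η) := by
      have : ∫ _σ in s0..(s0 + η), m = η * m := by
        rw [intervalIntegral.integral_const]; simp
      rw [← this]
      unfold Th
      refine intervalIntegral.integral_mono_on (by linarith) intervalIntegrable_const
        ((h'.PInt hle hk mp mq).sub (h.PInt hle hk mp mq)) fun σ hσ => (hh ?_).le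
      rw [Real.dist_eq, abs_lt]; constructor <;> linarith [hσ.1, hσ.2]
    have hb2 : r' * bar α β (s0 + η - s0) ≤ η * (r' * (β - α) / 2) := by
      have hr0 : 0 ≤ r' := by linarith
      unfold bar
      have : s0 + η - s0 = η := by ring
      rw [this]
      nlinarith [mul_nonneg hr0 (mul_nonneg ηpos.le ηpos.le)]
    have : η * m ≤ η * (r' * (β - α) / 2) := by linarith
    have : m ≤ r' * (β - α) / 2 := le_of_mul_le_mul_left this ηpos
    rw [hm] at this
    linarith
  by_contra hc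
  push Not at hc
  set v := P' k s0 - P k s0 with hv
  have := main (r + (v - r * (β - α) / 2) / (β - α)) (by
    have : 0 < (v - r * (β - α) / 2) / (β - α) := div_pos (by linarith) hw
    linarith)
  have e : (r + (v - r * (β - α) / 2) / (β - α)) * (β - α) / 2
      = r * (β - α) / 2 + (v - r * (β - α) / 2) / 2 := by
    field_simp
  rw [e] at this
  linarith

end general

end Vale.Agent.Lib.P074.SCore

namespace Vale.Agent.Lib.P074

open SCore in
/-- `P k s = max_{t ∈ K_s} (b_k t - φ(s,t))`, `lam k s` = length of the section of the cell `k` on the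
line `x₁ = s`, `bot s = min K_s`, levels sorted by `b`; primed data: same for `ψ`. -/
theorem score (n : ℕ) (hn : 0 < n) (al be r : ℝ) (h : al < be) (hr : 0 ≤ r)
    (b a a' w w' : ℕ → ℝ) (P P' lam lam' : ℕ → ℝ → ℝ) (bot : ℝ → ℝ)
    (hb : ∀ k, k + 1 < n → b k < b (k + 1)) (ha : ∀ k < n, |a k - a' k| ≤ r)
    (hPc : ∀ k < n, ConcaveOn ℝ (Icc al be) (P k)) (hPc' : ∀ k < n, ConcaveOn ℝ (Icc al be) (P' k))
    (hPI : ∀ k < n, IntervalIntegrable (P k) volume al be)
    (hPI' : ∀ k < n, IntervalIntegrable (P' k) volume al be)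
    (hPle : ∀ k < n, ∀ s ∈ Icc al be, P k s ≤ w k - a k * s)
    (hPle' : ∀ k < n, ∀ s ∈ Icc al be, P' k s ≤ w' k - a' k * s)
    (hPeq : ∀ k < n, ∀ s ∈ Icc al be, 0 < lam k s → P k s = w k - a k * s)
    (hPeq' : ∀ k < n, ∀ s ∈ Icc al be, 0 < lam' k s → P' k s = w' k - a' k * s)
    (hlam0 : ∀ k < n, ∀ s ∈ Icc al be, 0 ≤ lam k s)
    (hlam0' : ∀ k < n, ∀ s ∈ Icc al be, 0 ≤ lam' k s)
    (hlamI : ∀ k < n, IntervalIntegrable (lam k) volume al be)
    (hlamI' : ∀ k < n, IntervalIntegrable (lam' k) volume al be)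
    (hstep : ∀ k, k + 1 < n → ∀ s ∈ Icc al be,
      P (k + 1) s - P k s = (b (k + 1) - b k) * (bot s + ∑ j ∈ Finset.range (k + 1), lam j s))
    (hstep' : ∀ k, k + 1 < n → ∀ s ∈ Icc al be,
      P' (k + 1) s - P' k s = (b (k + 1) - b k) * (bot s + ∑ j ∈ Finset.range (k + 1), lam' j s))
    (hbot : ContinuousOn bot (Ioo al be))
    (hlen : ContinuousOn (fun s => ∑ j ∈ Finset.range n, lam j s) (Ioo al be))
    (hsum : ∀ s ∈ Icc al be, ∑ j ∈ Finset.range n, lam j s = ∑ j ∈ Finset.range n, lam' j s)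
    (hpos : ∀ s ∈ Ioo al be, 0 < ∑ j ∈ Finset.range n, lam j s)
    (hmass : ∀ k < n, ∫ s in al..be, lam k s = ∫ s in al..be, lam' k s) :
    ∃ c, ∀ k < n, ∀ s ∈ Ioo al be, |P' k s - P k s - c| ≤ r * (be - al) / 2 := by
  have hw : 0 < be - al := by linarith
  set c := (∫ σ in al..be, (P' 0 σ - P 0 σ)) / (be - al) with hc
  have S1 : Side n al be b bot a w P lam :=
    ⟨hPc, hPI, hPle, hPeq, hlam0, hlamI, hstep, hlen⟩
  have S2 : Side n al be b bot a' (fun k => w' k - c) (fun k s => P' k s - c) lam' := by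
    refine ⟨fun k hk => ?_, fun k hk => (hPI' k hk).sub intervalIntegrable_const,
      fun k hk s hs => ?_, fun k hk s hs hl => ?_, hlam0', hlamI', fun k hk s hs => ?_, ?_⟩
    · exact (hPc' k hk).sub (convexOn_const c (convex_Icc al be))
    · have := hPle' k hk s hs
      linarith
    · have := hPeq' k hk s hs hl
      linarith
    · have := hstep' k hk s hs
      linarith
    · exact hlen.congr fun s hs => (hsum s (Ioo_subset_Icc_self hs)).symm
  have hn1 : Th P (fun k s => P' k s - c) 0 al be = 0 := by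
    unfold Th
    have e : ∀ σ, P' 0 σ - c - P 0 σ = (P' 0 σ - P 0 σ) - c := fun σ => by ring
    simp only [e]
    rw [intervalIntegral.integral_sub ((hPI' 0 hn).sub (hPI 0 hn)) intervalIntegrable_const,
      intervalIntegral.integral_const, hc]
    simp only [smul_eq_mul]
    field_simp
    ring
  have hn2 : Th (fun k s => P' k s - c) P 0 al be = 0 := by
    have : Th (fun k s => P' k s - c) P 0 al be = - Th P (fun k s => P' k s - c) 0 al be := by
      unfold Th
      rw [← intervalIntegral.integral_neg]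
      congr 1
      ext σ; ring
    rw [this, hn1, neg_zero]
  have U := core_pt hn h S1 S2 hb hbot hr ha hsum hpos hmass hn1
  have L := core_pt hn h S2 S1 hb hbot hr (fun k hk => by rw [abs_sub_comm]; exact ha k hk)
    (fun s hs => (hsum s hs).symm)
    (fun s hs => by rw [← hsum s (Ioo_subset_Icc_self hs)]; exact hpos s hs)
    (fun k hk => (hmass k hk).symm) hn2
  refine ⟨c, fun k hk s hs => ?_⟩
  have u := U k hk s hs
  have l := L k hk s hs
  rw [abs_le]
  constructor <;> linarith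

end Vale.Agent.Lib.P074
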