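import Vale.Agent.Lib.P074.Third.PlaneB
import Vale.Agent.Lib.P074.Third.SCore

/-!
# P074: sup-norm stability of the potentials in `ℝ × ℝ`
-/

open MeasureTheory Set
open scoped Interval

namespace Vale.Agent.Lib.P074

variable {K : Set (ℝ × ℝ)} {α β : ℝ} {n : ℕ}

/-- Sup-norm stability of the potentials for displacements of the sites in the first direction. -/
theorem sup_stability2 (hB : Body K α β) (hn : 0 < n) (a a' b w w' : ℕ → ℝ)
    (hb : ∀ k, k + 1 < n → b k < b (k + 1)) (r : ℝ) (hr : ∀ k < n, |a k - a' k| ≤ r)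
    (hmass : ∀ k < n, volume (K ∩ cell2 n a b w k) = volume (K ∩ cell2 n a' b w' k)) :
    ∃ c : ℝ, ∀ x ∈ interior K, |pot2 n a b w x - pot2 n a' b w' x - c| ≤ r * (β - α) / 2 := by
  have hlt := hB.lt
  have hr0 : 0 ≤ r := (abs_nonneg _).trans (hr 0 hn)
  have hsub : Ioo α β ⊆ Icc α β := Ioo_subset_Icc_self
  obtain ⟨c, hc⟩ := score n hn α β r hlt hr0 b a a' w w' (PL K n a b w) (PL K n a' b w')
    (lam K n a b w) (lam K n a' b w') (bot K) hb hr
    (fun k _ => PL_concave hB hn a b w k) (fun k _ => PL_concave hB hn a' b w' k)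
    (fun k hk => PL_intervalIntegrable hB a b w hk) (fun k hk => PL_intervalIntegrable hB a' b w' hk)
    (fun k hk s hs => PL_le_line hB a b w hk hs) (fun k hk s hs => PL_le_line hB a' b w' hk hs)
    (fun k hk s _ h => PL_eq_line hB a b w hk h) (fun k hk s _ h => PL_eq_line hB a' b w' hk h)
    (fun k _ s _ => lam_nonneg a b w k s) (fun k _ s _ => lam_nonneg a' b w' k s)
    (fun k _ => lam_intervalIntegrable hB a b w k) (fun k _ => lam_intervalIntegrable hB a' b w' k)
    (fun k hk s hs => PL_step hB a b w hb k hk hs) (fun k hk s hs => PL_step hB a' b w' hb k hk hs)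
    hB.bot_continuousOn
    ((hB.top_continuousOn.sub hB.bot_continuousOn).congr
      (fun s hs => sum_lam hB hn a b w hb (hsub hs)))
    (fun s hs => (sum_lam hB hn a b w hb hs).trans (sum_lam hB hn a' b w' hb hs).symm)
    (fun s hs => by
      rw [sum_lam hB hn a b w hb (hsub hs)]
      exact sub_pos.2 (hB.bot_lt_top hs))
    (fun k hk => by rw [integral_lam hB a b w k, integral_lam hB a' b w' k, hmass k hk])
  refine ⟨c, fun x hx => ?_⟩
  obtain ⟨σ, t⟩ := x
  have hσ : σ ∈ Ioo α β := hB.fst_mem_Ioo hx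
  have hxK : (σ, t) ∈ K := interior_subset hx
  obtain ⟨k, hk, hkx⟩ := exists_mem_cell2 hn a b w (σ, t)
  obtain ⟨k', hk', hkx'⟩ := exists_mem_cell2 hn a' b w' (σ, t)
  have h1 := PL_eq_line_of_mem hB a b w hk ⟨hxK, hkx⟩
  have h2 := pot2_eq_of_mem_cell2 a b w hk hkx
  have h3 := le_PL hB hn a' b w' k hxK
  have h4 := PL_eq_line_of_mem hB a' b w' hk' ⟨hxK, hkx'⟩
  have h5 := pot2_eq_of_mem_cell2 a' b w' hk' hkx'
  have h6 := le_PL hB hn a b w k' hxK
  have h7 := abs_le.1 (hc k hk σ hσ)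
  have h8 := abs_le.1 (hc k' hk' σ hσ)
  simp only [aff2] at h2 h5
  rw [abs_le]
  constructor <;> linarith [h7.1, h7.2, h8.1, h8.2]

end Vale.Agent.Lib.P074
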