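import Vale.Agent.Lib.P074.Third.PlaneDefs

/-!
# P074, package PlaneA: sections of a planar convex body and the functions `PL`
-/

open MeasureTheory Set
open scoped Interval

namespace Vale.Agent.Lib.P074

variable {K : Set (ℝ × ℝ)} {α β : ℝ} {n : ℕ}

/-- a small square around an interior point -/
theorem exists_square {x : ℝ × ℝ} (hx : x ∈ _root_.interior K) :
    ∃ ε > 0, ∀ y : ℝ × ℝ, |y.1 - x.1| ≤ ε → |y.2 - x.2| ≤ ε → y ∈ K := by
  obtain ⟨δ, hδ, hball⟩ := Metric.mem_nhds_iff.1 (mem_interior_iff_mem_nhds.1 hx)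
  refine ⟨δ / 2, by positivity, fun y h1 h2 => hball ?_⟩
  rw [Metric.mem_ball, Prod.dist_eq, Real.dist_eq, Real.dist_eq]
  exact max_lt (by linarith) (by linarith)

theorem Body.fst_mem_Ioo (hB : Body K α β) {x : ℝ × ℝ} (hx : x ∈ _root_.interior K) :
    x.1 ∈ Ioo α β := by
  obtain ⟨ε, hε, h⟩ := exists_square hx
  have h1 := hB.fst_mem (x.1 - ε, x.2) (h _ (by simp [abs_of_pos hε]) (by simp [hε.le]))
  have h2 := hB.fst_mem (x.1 + ε, x.2) (h _ (by simp [abs_of_pos hε]) (by simp [hε.le]))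
  simp only [mem_Icc] at h1 h2
  constructor <;> linarith [h1.1, h2.2]

theorem Body.lt (hB : Body K α β) : α < β := by
  obtain ⟨x, hx⟩ := hB.interior
  have := hB.fst_mem_Ioo hx
  exact this.1.trans this.2

/-- convex combinations of two points of `K`, in coordinates -/
theorem Body.comb_mem (hB : Body K α β) {σ₁ t₁ σ₂ t₂ : ℝ} (h₁ : (σ₁, t₁) ∈ K) (h₂ : (σ₂, t₂) ∈ K)
    {p q : ℝ} (hp : 0 ≤ p) (hq : 0 ≤ q) (hpq : p + q = 1) :
    (p * σ₁ + q * σ₂, p * t₁ + q * t₂) ∈ K := by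
  have := hB.convex h₁ h₂ hp hq hpq
  simpa using this

theorem Body.section_nonempty (hB : Body K α β) {σ : ℝ} (hσ : σ ∈ Icc α β) :
    {t | (σ, t) ∈ K}.Nonempty := by
  obtain ⟨t₀, h₀⟩ := hB.left
  obtain ⟨t₁, h₁⟩ := hB.right
  have hlt := hB.lt
  have hd : 0 < β - α := sub_pos.2 hlt
  have := hB.comb_mem h₀ h₁ (p := (β - σ) / (β - α)) (q := (σ - α) / (β - α))
    (div_nonneg (sub_nonneg.2 hσ.2) hd.le) (div_nonneg (sub_nonneg.2 hσ.1) hd.le)
    (by field_simp; ring)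
  have e : (β - σ) / (β - α) * α + (σ - α) / (β - α) * β = σ := by
    field_simp
    ring
  rw [e] at this
  exact ⟨_, this⟩

theorem Body.section_compact (hB : Body K α β) (σ : ℝ) : IsCompact {t | (σ, t) ∈ K} := by
  have h1 : IsCompact (K ∩ {x : ℝ × ℝ | x.1 = σ}) :=
    hB.compact.inter_right (isClosed_eq continuous_fst continuous_const)
  have h2 : {t | (σ, t) ∈ K} = Prod.snd '' (K ∩ {x : ℝ × ℝ | x.1 = σ}) := by
    ext t
    constructor
    · intro h
      exact ⟨(σ, t), ⟨h, rfl⟩, rfl⟩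
    · rintro ⟨⟨s, u⟩, ⟨h, hs⟩, rfl⟩
      have hs' : s = σ := hs
      subst hs'
      exact h
  rw [h2]
  exact h1.image continuous_snd

theorem Body.section_convex (hB : Body K α β) (σ : ℝ) : Convex ℝ {t | (σ, t) ∈ K} := by
  intro t₁ h₁ t₂ h₂ p q hp hq hpq
  have := hB.comb_mem h₁ h₂ hp hq hpq
  have e : p * σ + q * σ = σ := by rw [← add_mul, hpq, one_mul]
  rw [e] at this
  simpa using this

theorem Body.section_Icc (hB : Body K α β) {σ : ℝ} (hσ : σ ∈ Icc α β) :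
    bot K σ ≤ top K σ ∧ {t | (σ, t) ∈ K} = Icc (bot K σ) (top K σ) := by
  have hne := hB.section_nonempty hσ
  have hc := hB.section_compact σ
  have h := eq_Icc_of_connected_compact ((hB.section_convex σ).isConnected hne) hc
  refine ⟨?_, h⟩
  obtain ⟨t, ht⟩ := hne
  exact (csInf_le hc.bddBelow ht).trans (le_csSup hc.bddAbove ht)

theorem Body.bot_mem (hB : Body K α β) {σ : ℝ} (hσ : σ ∈ Icc α β) : (σ, bot K σ) ∈ K :=
  (hB.section_compact σ).sInf_mem (hB.section_nonempty hσ)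

theorem Body.top_mem (hB : Body K α β) {σ : ℝ} (hσ : σ ∈ Icc α β) : (σ, top K σ) ∈ K :=
  (hB.section_compact σ).sSup_mem (hB.section_nonempty hσ)

theorem Body.bot_le (hB : Body K α β) {σ t : ℝ} (h : (σ, t) ∈ K) : bot K σ ≤ t :=
  csInf_le (hB.section_compact σ).bddBelow h

theorem Body.le_top (hB : Body K α β) {σ t : ℝ} (h : (σ, t) ∈ K) : t ≤ top K σ :=
  le_csSup (hB.section_compact σ).bddAbove h

theorem Body.bot_lt_top (hB : Body K α β) {σ : ℝ} (hσ : σ ∈ Ioo α β) : bot K σ < top K σ := by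
  obtain ⟨x, hx⟩ := hB.interior
  obtain ⟨ε, hε, hsq⟩ := exists_square hx
  have hx1 := hB.fst_mem_Ioo hx
  have hup : (x.1, x.2 + ε) ∈ K := hsq _ (by simp [hε.le]) (by simp [abs_of_pos hε])
  have hdn : (x.1, x.2 - ε) ∈ K := hsq _ (by simp [hε.le]) (by simp [abs_of_pos hε])
  -- a general step: from an end point `(γ, u)` with `γ ≠ x.1` and `σ` strictly between
  have key : ∀ γ u : ℝ, (γ, u) ∈ K → ∀ q : ℝ, 0 < q → q ≤ 1 → (1 - q) * γ + q * x.1 = σ →
      bot K σ < top K σ := by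
    intro γ u hγ q hq0 hq1 hq
    have h1 := hB.comb_mem hγ hup (p := 1 - q) (q := q) (by linarith) hq0.le (by ring)
    have h2 := hB.comb_mem hγ hdn (p := 1 - q) (q := q) (by linarith) hq0.le (by ring)
    rw [hq] at h1 h2
    have h3 := hB.le_top h1
    have h4 := hB.bot_le h2
    have : q * (x.2 - ε) < q * (x.2 + ε) := by
      apply mul_lt_mul_of_pos_left _ hq0
      linarith
    linarith
  rcases le_total σ x.1 with h | h
  · obtain ⟨u, hu⟩ := hB.left
    have hd : 0 < x.1 - α := sub_pos.2 hx1.1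
    refine key α u hu ((σ - α) / (x.1 - α)) (div_pos (sub_pos.2 hσ.1) hd) ?_ ?_
    · rw [div_le_one hd]
      linarith
    · field_simp
      ring
  · obtain ⟨u, hu⟩ := hB.right
    have hd : 0 < β - x.1 := sub_pos.2 hx1.2
    refine key β u hu ((β - σ) / (β - x.1)) (div_pos (sub_pos.2 hσ.2) hd) ?_ ?_
    · rw [div_le_one hd]
      linarith
    · field_simp
      ring

theorem Body.bot_convexOn (hB : Body K α β) : ConvexOn ℝ (Icc α β) (bot K) := by
  refine ⟨convex_Icc α β, fun σ₁ h₁ σ₂ h₂ p q hp hq hpq => ?_⟩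
  have := hB.comb_mem (hB.bot_mem h₁) (hB.bot_mem h₂) hp hq hpq
  simpa using hB.bot_le this

theorem Body.top_concaveOn (hB : Body K α β) : ConcaveOn ℝ (Icc α β) (top K) := by
  refine ⟨convex_Icc α β, fun σ₁ h₁ σ₂ h₂ p q hp hq hpq => ?_⟩
  have := hB.comb_mem (hB.top_mem h₁) (hB.top_mem h₂) hp hq hpq
  simpa using hB.le_top this

theorem Body.bot_continuousOn (hB : Body K α β) : ContinuousOn (bot K) (Ioo α β) := by
  have := hB.bot_convexOn.continuousOn_interior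
  rwa [interior_Icc] at this

theorem Body.top_continuousOn (hB : Body K α β) : ContinuousOn (top K) (Ioo α β) := by
  have := hB.top_concaveOn.continuousOn_interior
  rwa [interior_Icc] at this

theorem aff2_le_pot2 (a b w : ℕ → ℝ) {k : ℕ} (hk : k < n) (x : ℝ × ℝ) :
    aff2 a b w k x ≤ pot2 n a b w x :=
  le_ciSup (f := fun j : Fin n => aff2 a b w j x) (Set.finite_range _).bddAbove ⟨k, hk⟩

theorem pot2_le (hn : 0 < n) (a b w : ℕ → ℝ) (x : ℝ × ℝ) {c : ℝ}
    (h : ∀ j < n, aff2 a b w j x ≤ c) : pot2 n a b w x ≤ c := by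
  have : Nonempty (Fin n) := ⟨⟨0, hn⟩⟩
  exact ciSup_le fun j => h j j.2

theorem pot2_eq_of_mem_cell2 (a b w : ℕ → ℝ) {k : ℕ} (hk : k < n) {x : ℝ × ℝ}
    (hx : x ∈ cell2 n a b w k) : pot2 n a b w x = aff2 a b w k x :=
  le_antisymm (pot2_le (Nat.zero_lt_of_lt hk) a b w x hx) (aff2_le_pot2 a b w hk x)

theorem exists_mem_cell2 (hn : 0 < n) (a b w : ℕ → ℝ) (x : ℝ × ℝ) :
    ∃ k < n, x ∈ cell2 n a b w k := by
  obtain ⟨k, hk, hmax⟩ := Finset.exists_max_image (Finset.range n) (fun j => aff2 a b w j x)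
    ⟨0, Finset.mem_range.2 hn⟩
  exact ⟨k, Finset.mem_range.1 hk, fun j hj => hmax j (Finset.mem_range.2 hj)⟩

/-- the family defining `PL` is bounded above -/
theorem PL_bddAbove (hB : Body K α β) (hn : 0 < n) (a b w : ℕ → ℝ) (k : ℕ) (σ : ℝ) :
    BddAbove ((fun t => b k * t - pot2 n a b w (σ, t)) '' {t | (σ, t) ∈ K}) := by
  obtain ⟨M, hM⟩ := (hB.section_compact σ).isBounded.exists_norm_le
  refine ⟨|b k - b 0| * M - a 0 * σ + w 0, ?_⟩
  rintro _ ⟨t, ht, rfl⟩
  have h1 := aff2_le_pot2 a b w hn (σ, t)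
  simp only [aff2] at h1
  have h2 : (b k - b 0) * t ≤ |b k - b 0| * M := by
    calc (b k - b 0) * t ≤ |(b k - b 0) * t| := le_abs_self _
      _ = |b k - b 0| * |t| := abs_mul _ _
      _ ≤ |b k - b 0| * M := mul_le_mul_of_nonneg_left (hM t ht) (abs_nonneg _)
  show b k * t - pot2 n a b w (σ, t) ≤ _
  nlinarith

theorem le_PL (hB : Body K α β) (hn : 0 < n) (a b w : ℕ → ℝ) (k : ℕ) {σ t : ℝ} (h : (σ, t) ∈ K) :
    b k * t - pot2 n a b w (σ, t) ≤ PL K n a b w k σ :=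
  le_csSup (PL_bddAbove hB hn a b w k σ) ⟨t, h, rfl⟩

theorem PL_le_line (hB : Body K α β) (a b w : ℕ → ℝ) {k : ℕ} (hk : k < n) {σ : ℝ}
    (hσ : σ ∈ Icc α β) : PL K n a b w k σ ≤ w k - a k * σ := by
  refine csSup_le ((hB.section_nonempty hσ).image _) ?_
  rintro _ ⟨t, -, rfl⟩
  have h1 := aff2_le_pot2 a b w hk (σ, t)
  simp only [aff2] at h1
  show b k * t - pot2 n a b w (σ, t) ≤ _
  linarith

theorem PL_eq_line_of_mem (hB : Body K α β) (a b w : ℕ → ℝ) {k : ℕ} (hk : k < n) {σ t : ℝ}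
    (h : (σ, t) ∈ K ∩ cell2 n a b w k) : PL K n a b w k σ = w k - a k * σ := by
  refine le_antisymm (PL_le_line hB a b w hk (hB.fst_mem _ h.1)) ?_
  have h1 := le_PL hB (Nat.zero_lt_of_lt hk) a b w k h.1
  rw [pot2_eq_of_mem_cell2 a b w hk h.2] at h1
  simp only [aff2] at h1
  linarith

theorem PL_eq_line (hB : Body K α β) (a b w : ℕ → ℝ) {k : ℕ} (hk : k < n) {σ : ℝ}
    (hσ : 0 < lam K n a b w k σ) : PL K n a b w k σ = w k - a k * σ := by
  have hne : {t | (σ, t) ∈ K ∩ cell2 n a b w k}.Nonempty := by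
    by_contra hcon
    rw [not_nonempty_iff_eq_empty] at hcon
    unfold lam at hσ
    rw [hcon] at hσ
    simp at hσ
  obtain ⟨t, ht⟩ := hne
  exact PL_eq_line_of_mem hB a b w hk ht

theorem pot2_comb_le (hn : 0 < n) (a b w : ℕ → ℝ) (σ₁ t₁ σ₂ t₂ : ℝ) {p q : ℝ} (hp : 0 ≤ p)
    (hq : 0 ≤ q) (hpq : p + q = 1) :
    pot2 n a b w (p * σ₁ + q * σ₂, p * t₁ + q * t₂) ≤
      p * pot2 n a b w (σ₁, t₁) + q * pot2 n a b w (σ₂, t₂) := by
  refine pot2_le hn a b w _ fun j hj => ?_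
  have h1 := mul_le_mul_of_nonneg_left (aff2_le_pot2 a b w hj (σ₁, t₁)) hp
  have h2 := mul_le_mul_of_nonneg_left (aff2_le_pot2 a b w hj (σ₂, t₂)) hq
  have e : aff2 a b w j (p * σ₁ + q * σ₂, p * t₁ + q * t₂) =
      p * aff2 a b w j (σ₁, t₁) + q * aff2 a b w j (σ₂, t₂) := by
    simp only [aff2]
    linear_combination (w j) * hpq
  rw [e]
  linarith

theorem PL_concave (hB : Body K α β) (hn : 0 < n) (a b w : ℕ → ℝ) (k : ℕ) :
    ConcaveOn ℝ (Icc α β) (PL K n a b w k) := by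
  refine ⟨convex_Icc α β, fun σ₁ h₁ σ₂ h₂ p q hp hq hpq => ?_⟩
  simp only [smul_eq_mul]
  refine le_of_forall_pos_le_add fun ε hε => ?_
  obtain ⟨_, ⟨t₁, ht₁, rfl⟩, hv₁⟩ := exists_lt_of_lt_csSup ((hB.section_nonempty h₁).image
    (fun t => b k * t - pot2 n a b w (σ₁, t))) (sub_lt_self (PL K n a b w k σ₁) hε)
  obtain ⟨_, ⟨t₂, ht₂, rfl⟩, hv₂⟩ := exists_lt_of_lt_csSup ((hB.section_nonempty h₂).image
    (fun t => b k * t - pot2 n a b w (σ₂, t))) (sub_lt_self (PL K n a b w k σ₂) hε)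
  have h3 := le_PL hB hn a b w k (hB.comb_mem ht₁ ht₂ hp hq hpq)
  have h4 := pot2_comb_le hn a b w σ₁ t₁ σ₂ t₂ hp hq hpq
  have h5 := mul_le_mul_of_nonneg_left hv₁.le hp
  have h6 := mul_le_mul_of_nonneg_left hv₂.le hq
  have h7 : p * ε + q * ε = ε := by rw [← add_mul, hpq, one_mul]
  simp only at h5 h6
  nlinarith

theorem PL_intervalIntegrable (hB : Body K α β) (a b w : ℕ → ℝ) {k : ℕ} (hk : k < n) :
    IntervalIntegrable (PL K n a b w k) volume α β := by
  have hn : 0 < n := Nat.zero_lt_of_lt hk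
  have hlt := hB.lt
  have hconc := PL_concave hB hn a b w k
  have hcont : ContinuousOn (PL K n a b w k) (Ioo α β) := by
    have := hconc.continuousOn_interior
    rwa [interior_Icc] at this
  rw [intervalIntegrable_iff_integrableOn_Ioo_of_le hlt.le]
  set f := PL K n a b w k with hf
  set m := min (f α) (f β) with hm
  set M := |w k| + |a k| * max |α| |β| with hM
  refine Integrable.of_bound (hcont.aestronglyMeasurable measurableSet_Ioo) (max |m| M) ?_
  rw [ae_restrict_iff' measurableSet_Ioo]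
  refine Filter.Eventually.of_forall fun σ hσ => ?_
  have hσ' : σ ∈ Icc α β := Ioo_subset_Icc_self hσ
  have hup : f σ ≤ M := by
    refine (PL_le_line hB a b w hk hσ').trans ?_
    have h1 : |σ| ≤ max |α| |β| := abs_le_max_abs_abs hσ'.1 hσ'.2
    have h2 : -(a k * σ) ≤ |a k| * max |α| |β| := by
      calc -(a k * σ) ≤ |a k * σ| := neg_le_abs _
        _ = |a k| * |σ| := abs_mul _ _
        _ ≤ _ := mul_le_mul_of_nonneg_left h1 (abs_nonneg _)
    have h3 := le_abs_self (w k)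
    rw [hM]
    linarith
  have hlo : m ≤ f σ := by
    have hd : 0 < β - α := sub_pos.2 hlt
    have := hconc.2 (left_mem_Icc.2 hlt.le) (right_mem_Icc.2 hlt.le)
      (div_nonneg (sub_nonneg.2 hσ'.2) hd.le) (div_nonneg (sub_nonneg.2 hσ'.1) hd.le)
      (by field_simp; ring)
    have e : ((β - σ) / (β - α)) • α + ((σ - α) / (β - α)) • β = σ := by
      simp only [smul_eq_mul]
      field_simp
      ring
    rw [e] at this
    simp only [smul_eq_mul] at this
    have h1 : (β - σ) / (β - α) * m ≤ (β - σ) / (β - α) * f α :=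
      mul_le_mul_of_nonneg_left (min_le_left _ _) (div_nonneg (sub_nonneg.2 hσ'.2) hd.le)
    have h2 : (σ - α) / (β - α) * m ≤ (σ - α) / (β - α) * f β :=
      mul_le_mul_of_nonneg_left (min_le_right _ _) (div_nonneg (sub_nonneg.2 hσ'.1) hd.le)
    have h3 : (β - σ) / (β - α) * m + (σ - α) / (β - α) * m = m := by
      field_simp
      ring
    linarith
  rw [Real.norm_eq_abs, abs_le]
  constructor
  · have := neg_abs_le m
    have := le_max_left |m| M
    linarith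
  · exact hup.trans (le_max_right _ _)

end Vale.Agent.Lib.P074
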