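import Vale.Agent.Lib.P074.Third.PlaneA
import Vale.Agent.Lib.P074.Third.Line

/-!
# P074, package PlaneB: the section lengths `lam`
-/

open MeasureTheory Set
open scoped Interval

namespace Vale.Agent.Lib.P074

variable {K : Set (ℝ × ℝ)} {α β : ℝ} {n : ℕ}

theorem lam_nonneg (a b w : ℕ → ℝ) (k : ℕ) (σ : ℝ) : 0 ≤ lam K n a b w k σ :=
  ENNReal.toReal_nonneg

theorem isClosed_cell2 (a b w : ℕ → ℝ) (k : ℕ) : IsClosed (cell2 n a b w k) := by
  have : cell2 n a b w k =
      ⋂ j ∈ Finset.range n, {x : ℝ × ℝ | aff2 a b w j x ≤ aff2 a b w k x} := by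
    ext x
    simp [cell2]
  rw [this]
  refine isClosed_biInter fun j _ => ?_
  unfold aff2
  exact isClosed_le (by fun_prop) (by fun_prop)

theorem measurableSet_inter_cell2 (hB : Body K α β) (a b w : ℕ → ℝ) (k : ℕ) :
    MeasurableSet (K ∩ cell2 n a b w k) :=
  (hB.compact.isClosed.inter (isClosed_cell2 a b w k)).measurableSet

theorem volume_inter_cell2_ne_top (hB : Body K α β) (a b w : ℕ → ℝ) (k : ℕ) :
    volume (K ∩ cell2 n a b w k) ≠ ⊤ :=
  ((measure_mono inter_subset_left).trans_lt hB.compact.measure_lt_top).ne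

theorem lintegral_section (hB : Body K α β) (a b w : ℕ → ℝ) (k : ℕ) :
    ∫⁻ σ, volume {t | (σ, t) ∈ K ∩ cell2 n a b w k} = volume (K ∩ cell2 n a b w k) := by
  rw [Measure.volume_eq_prod, Measure.prod_apply (measurableSet_inter_cell2 hB a b w k)]
  rfl

theorem measurable_section (hB : Body K α β) (a b w : ℕ → ℝ) (k : ℕ) :
    Measurable fun σ : ℝ => volume {t : ℝ | (σ, t) ∈ K ∩ cell2 n a b w k} :=
  measurable_measure_prodMk_left (measurableSet_inter_cell2 hB a b w k)

theorem lam_integrable (hB : Body K α β) (a b w : ℕ → ℝ) (k : ℕ) :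
    Integrable (lam K n a b w k) := by
  unfold lam
  refine integrable_toReal_of_lintegral_ne_top (measurable_section hB a b w k).aemeasurable ?_
  rw [lintegral_section hB]
  exact volume_inter_cell2_ne_top hB a b w k

theorem lam_intervalIntegrable (hB : Body K α β) (a b w : ℕ → ℝ) (k : ℕ) :
    IntervalIntegrable (lam K n a b w k) volume α β :=
  (lam_integrable hB a b w k).intervalIntegrable

theorem lam_eq_zero (hB : Body K α β) (a b w : ℕ → ℝ) (k : ℕ) {σ : ℝ} (hσ : σ ∉ Icc α β) :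
    lam K n a b w k σ = 0 := by
  unfold lam
  have : {t | (σ, t) ∈ K ∩ cell2 n a b w k} = ∅ := by
    ext t
    simp only [mem_setOf_eq, mem_empty_iff_false, iff_false]
    intro h
    exact hσ (hB.fst_mem _ h.1)
  rw [this]
  simp

/-- Fubini -/
theorem integral_lam (hB : Body K α β) (a b w : ℕ → ℝ) (k : ℕ) :
    ∫ σ in α..β, lam K n a b w k σ = (volume (K ∩ cell2 n a b w k)).toReal := by
  rw [intervalIntegral.integral_of_le hB.lt.le, ← integral_Icc_eq_integral_Ioc,
    setIntegral_eq_integral_of_forall_compl_eq_zero (fun σ hσ => lam_eq_zero hB a b w k hσ),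
    ← lintegral_section hB]
  unfold lam
  refine integral_toReal (measurable_section hB a b w k).aemeasurable ?_
  refine ae_lt_top (measurable_section hB a b w k) ?_
  rw [lintegral_section hB]
  exact volume_inter_cell2_ne_top hB a b w k

theorem section_eq (hB : Body K α β) (a b w : ℕ → ℝ) (j : ℕ) {σ : ℝ} (hσ : σ ∈ Icc α β) :
    {t | (σ, t) ∈ K ∩ cell2 n a b w j} =
      {t | t ∈ Icc (bot K σ) (top K σ) ∧
        ∀ i < n, b i * t - (w i - a i * σ) ≤ b j * t - (w j - a j * σ)} := by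
  have h := (hB.section_Icc hσ).2
  ext t
  have h1 : (σ, t) ∈ K ↔ t ∈ Icc (bot K σ) (top K σ) := by
    rw [← h]
    rfl
  simp only [mem_inter_iff, mem_setOf_eq, h1, cell2, aff2]
  refine and_congr_right fun _ => forall₂_congr fun i _ => ?_
  constructor <;> intro h <;> linarith

theorem sum_lam (hB : Body K α β) (hn : 0 < n) (a b w : ℕ → ℝ)
    (hb : ∀ k, k + 1 < n → b k < b (k + 1)) {σ : ℝ} (hσ : σ ∈ Icc α β) :
    ∑ j ∈ Finset.range n, lam K n a b w j σ = top K σ - bot K σ := by
  have := line_sum n hn b (fun i => w i - a i * σ) hb (bot K σ) (top K σ) (hB.section_Icc hσ).1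
  rw [← this]
  refine Finset.sum_congr rfl fun j _ => ?_
  unfold lam
  rw [section_eq hB a b w j hσ]

theorem PL_eq (hB : Body K α β) (a b w : ℕ → ℝ) (k : ℕ) {σ : ℝ} (hσ : σ ∈ Icc α β) :
    PL K n a b w k σ =
      sSup ((fun t => b k * t - ⨆ j : Fin n, (b j * t - (w j - a j * σ))) ''
        Icc (bot K σ) (top K σ)) := by
  unfold PL
  rw [(hB.section_Icc hσ).2]
  congr 1
  refine image_congr fun t _ => ?_
  simp only [pot2, aff2]
  congr 1
  refine iSup_congr fun j => ?_
  ring

/-- `line_step` on the vertical line `x₁ = σ` -/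
theorem PL_step (hB : Body K α β) (a b w : ℕ → ℝ) (hb : ∀ k, k + 1 < n → b k < b (k + 1))
    (k : ℕ) (hk : k + 1 < n) {σ : ℝ} (hσ : σ ∈ Icc α β) :
    PL K n a b w (k + 1) σ - PL K n a b w k σ =
      (b (k + 1) - b k) * (bot K σ + ∑ j ∈ Finset.range (k + 1), lam K n a b w j σ) := by
  have := line_step n b (fun i => w i - a i * σ) hb (bot K σ) (top K σ) (hB.section_Icc hσ).1 k hk
  rw [PL_eq hB a b w (k + 1) hσ, PL_eq hB a b w k hσ, this]
  congr 2
  refine Finset.sum_congr rfl fun j _ => ?_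
  unfold lam
  rw [section_eq hB a b w j hσ]

end Vale.Agent.Lib.P074
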