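import Mathlib

/-!
# P074: power diagrams in `ℝ × ℝ` and their partial Legendre transforms (definitions)
Families are indexed by `ℕ`; only the indices `< n` matter.
-/

open MeasureTheory Set

namespace Vale.Agent.Lib.P074

noncomputable def aff2 (a b w : ℕ → ℝ) (k : ℕ) (x : ℝ × ℝ) : ℝ := a k * x.1 + b k * x.2 - w k

def cell2 (n : ℕ) (a b w : ℕ → ℝ) (k : ℕ) : Set (ℝ × ℝ) :=
  {x | ∀ j < n, aff2 a b w j x ≤ aff2 a b w k x}

noncomputable def pot2 (n : ℕ) (a b w : ℕ → ℝ) (x : ℝ × ℝ) : ℝ := ⨆ j : Fin n, aff2 a b w j x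

/-- partial Legendre transform in the second variable, at the slope `b k`, over the section of `K` -/
noncomputable def PL (K : Set (ℝ × ℝ)) (n : ℕ) (a b w : ℕ → ℝ) (k : ℕ) (σ : ℝ) : ℝ :=
  sSup ((fun t => b k * t - pot2 n a b w (σ, t)) '' {t | (σ, t) ∈ K})

/-- length of the section of the cell `k` (inside `K`) on the vertical line `x₁ = σ` -/
noncomputable def lam (K : Set (ℝ × ℝ)) (n : ℕ) (a b w : ℕ → ℝ) (k : ℕ) (σ : ℝ) : ℝ :=
  (volume {t | (σ, t) ∈ K ∩ cell2 n a b w k}).toReal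

/-- lowest point of the section of `K` -/
noncomputable def bot (K : Set (ℝ × ℝ)) (σ : ℝ) : ℝ := sInf {t | (σ, t) ∈ K}

/-- highest point of the section of `K` -/
noncomputable def top (K : Set (ℝ × ℝ)) (σ : ℝ) : ℝ := sSup {t | (σ, t) ∈ K}

/-- a planar convex body whose projection to the first axis is `[α, β]` -/
structure Body (K : Set (ℝ × ℝ)) (α β : ℝ) : Prop where
  compact : IsCompact K
  convex : Convex ℝ K
  interior : (interior K).Nonempty
  fst_mem : ∀ x ∈ K, x.1 ∈ Icc α β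
  left : ∃ t, (α, t) ∈ K
  right : ∃ t, (β, t) ∈ K

end Vale.Agent.Lib.P074
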