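import Vale.Agent.Lib.P074.Third.Disc
import Vale.Agent.Lib.P074.Third.Plane

/-!
# P074: sup-norm stability of the potentials in `E 2` (transfer from `ℝ × ℝ`, sorting of the levels)
-/

open MeasureTheory Set Metric
open scoped InnerProductSpace ENNReal

namespace Vale.Agent.Lib.P074

variable {n : ℕ}

/-- the measurable equivalence `x ↦ (x 0, x 1)` -/
noncomputable def coord01 : E 2 ≃ᵐ ℝ × ℝ :=
  (MeasurableEquiv.toLp 2 (Fin 2 → ℝ)).symm.trans MeasurableEquiv.finTwoArrow

/-- the measurable equivalence `x ↦ (x 1, x 0)` -/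
noncomputable def coord10 : E 2 ≃ᵐ ℝ × ℝ := coord01.trans MeasurableEquiv.prodComm

theorem coord01_apply (x : E 2) : coord01 x = (x 0, x 1) := rfl

theorem coord10_apply (x : E 2) : coord10 x = (x 1, x 0) := rfl

theorem coord01_symm_apply (p : ℝ × ℝ) : coord01.symm p = !₂[p.1, p.2] := by
  apply coord01.injective
  rw [MeasurableEquiv.apply_symm_apply, coord01_apply]
  simp

theorem coord10_symm_apply (p : ℝ × ℝ) : coord10.symm p = !₂[p.2, p.1] := by
  apply coord10.injective
  rw [MeasurableEquiv.apply_symm_apply, coord10_apply]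
  simp

theorem measurePreserving_coord01 : MeasurePreserving coord01 volume volume :=
  (EuclideanSpace.volume_preserving_symm_measurableEquiv_toLp (Fin 2)).trans
    (volume_preserving_finTwoArrow ℝ)

theorem measurePreserving_coord10 : MeasurePreserving coord10 volume volume :=
  measurePreserving_coord01.trans Measure.measurePreserving_swap

theorem continuous_coord01 : Continuous coord01 := by
  have : (coord01 : E 2 → ℝ × ℝ) = fun x => (x 0, x 1) := funext coord01_apply
  rw [this]
  fun_prop

theorem continuous_coord10 : Continuous coord10 := by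
  have : (coord10 : E 2 → ℝ × ℝ) = fun x => (x 1, x 0) := funext coord10_apply
  rw [this]
  fun_prop

theorem continuous_coord01_symm : Continuous coord01.symm := by
  have : (coord01.symm : ℝ × ℝ → E 2) = fun p => !₂[p.1, p.2] := funext coord01_symm_apply
  rw [this]
  apply (PiLp.continuous_toLp 2 (fun _ : Fin 2 => ℝ)).comp
  apply continuous_pi
  intro i
  fin_cases i
  · simpa using continuous_fst
  · simpa using continuous_snd

theorem continuous_coord10_symm : Continuous coord10.symm := by
  have : (coord10.symm : ℝ × ℝ → E 2) = fun p => !₂[p.2, p.1] := funext coord10_symm_apply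
  rw [this]
  apply (PiLp.continuous_toLp 2 (fun _ : Fin 2 => ℝ)).comp
  apply continuous_pi
  intro i
  fin_cases i
  · simpa using continuous_snd
  · simpa using continuous_fst

/-- the transfer, for an abstract coordinate chart `e x = (x i, x j)` -/
theorem sup_stability_aux (e : E 2 ≃ᵐ ℝ × ℝ) (he : MeasurePreserving e volume volume)
    (hec : Continuous e) (hes : Continuous e.symm) (i j : Fin 2)
    (hev : ∀ x, e x = (x i, x j))
    (hinner : ∀ x y : E 2, ⟪x, y⟫_ℝ = y i * x i + y j * x j)
    (K : Set (E 2)) (hK : IsCompact K) (hKc : Convex ℝ K)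
    (hKi : (interior K).Nonempty) (rK : ℝ) (hKr : K ⊆ closedBall 0 rK) (hn : 0 < n)
    (A B : Fin n → E 2) (hlev : ∀ p, A p j = B p j)
    (hinj : Function.Injective fun p => A p j) (κ : ℝ) (hκ : ∀ p, |A p i - B p i| ≤ κ)
    (w w' : Fin n → ℝ) (hmass : ∀ p, volume (K ∩ cell A w p) = volume (K ∩ cell B w' p)) :
    ∃ c : ℝ, ∀ x ∈ interior K, |pot A w x - pot B w' x - c| ≤ rK * κ := by
  classical
  -- sorting
  set s : Equiv.Perm (Fin n) := Tuple.sort (fun p => A p j) with hs
  have hmono : StrictMono ((fun p => A p j) ∘ s) :=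
    (Tuple.monotone_sort _).strictMono_of_injective (hinj.comp s.injective)
  set idx : ℕ → Fin n := fun k => if h : k < n then s ⟨k, h⟩ else s ⟨0, hn⟩ with hidx
  have hidx_lt : ∀ k (h : k < n), idx k = s ⟨k, h⟩ := fun k h => by simp [hidx, h]
  have hsurj : ∀ p : Fin n, ∃ k < n, idx k = p := fun p =>
    ⟨(s.symm p).1, (s.symm p).2, by rw [hidx_lt _ (s.symm p).2]; simp⟩
  set a : ℕ → ℝ := fun k => A (idx k) i with ha
  set a' : ℕ → ℝ := fun k => B (idx k) i with ha'
  set b : ℕ → ℝ := fun k => A (idx k) j with hb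
  set v : ℕ → ℝ := fun k => w (idx k) with hv
  set v' : ℕ → ℝ := fun k => w' (idx k) with hv'
  have haff : ∀ k x, aff2 a b v k (e x) = aff A w (idx k) x := fun k x => by
    simp only [aff2, aff, hev, hinner, ha, hb, hv]
  have haff' : ∀ k x, aff2 a' b v' k (e x) = aff B w' (idx k) x := fun k x => by
    simp only [aff2, aff, hev, hinner, ha', hb, hv', hlev]
  have hcell : ∀ k, e ⁻¹' (cell2 n a b v k) = cell A w (idx k) := fun k => by
    ext x
    simp only [mem_preimage, cell2, cell, mem_ofPred_eq, haff]
    constructor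
    · intro h p
      obtain ⟨l, hl, rfl⟩ := hsurj p
      exact h l hl
    · intro h l _
      exact h (idx l)
  have hcell' : ∀ k, e ⁻¹' (cell2 n a' b v' k) = cell B w' (idx k) := fun k => by
    ext x
    simp only [mem_preimage, cell2, cell, mem_ofPred_eq, haff']
    constructor
    · intro h p
      obtain ⟨l, hl, rfl⟩ := hsurj p
      exact h l hl
    · intro h l _
      exact h (idx l)
  have hpot : ∀ x, pot2 n a b v (e x) = pot A w x := fun x => by
    simp only [pot2, pot, haff]
    rw [← Equiv.iSup_comp (g := fun p => aff A w p x) s]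
    exact iSup_congr fun l => by rw [hidx_lt l.1 l.2]
  have hpot' : ∀ x, pot2 n a' b v' (e x) = pot B w' x := fun x => by
    simp only [pot2, pot, haff']
    rw [← Equiv.iSup_comp (g := fun p => aff B w' p x) s]
    exact iSup_congr fun l => by rw [hidx_lt l.1 l.2]
  -- the body
  set K2 : Set (ℝ × ℝ) := e.symm ⁻¹' K with hK2
  have hK2im : K2 = e '' K := by
    rw [hK2]
    exact (e.toEquiv.image_eq_preimage_symm K).symm
  have hpre : e ⁻¹' K2 = K := by
    ext x
    simp [hK2]
  obtain ⟨xm, hxm, hmin⟩ := hK.exists_isMinOn (hKi.mono interior_subset)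
    (f := fun x : E 2 => x i) (by fun_prop)
  obtain ⟨xM, hxM, hmax⟩ := hK.exists_isMaxOn (hKi.mono interior_subset)
    (f := fun x : E 2 => x i) (by fun_prop)
  have hbody : Body K2 (xm i) (xM i) := by
    refine ⟨?_, ?_, ?_, ?_, ?_, ?_⟩
    · rw [hK2im]; exact hK.image hec
    · intro p hp q hq t u ht hu htu
      have h := hKc hp hq ht hu htu
      have h3 : e.symm (t • p + u • q) = t • e.symm p + u • e.symm q := by
        apply e.injective
        rw [e.apply_symm_apply, hev]
        have hp1 : e (e.symm p) = p := e.apply_symm_apply p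
        have hq1 : e (e.symm q) = q := e.apply_symm_apply q
        rw [hev] at hp1 hq1
        have hp2 : p.1 = (e.symm p) i := (congrArg Prod.fst hp1).symm
        have hp3 : p.2 = (e.symm p) j := (congrArg Prod.snd hp1).symm
        have hq2 : q.1 = (e.symm q) i := (congrArg Prod.fst hq1).symm
        have hq3 : q.2 = (e.symm q) j := (congrArg Prod.snd hq1).symm
        apply Prod.ext
        · simp only [Prod.fst_add, Prod.smul_fst, PiLp.add_apply, PiLp.smul_apply, hp2, hq2]
        · simp only [Prod.snd_add, Prod.smul_snd, PiLp.add_apply, PiLp.smul_apply, hp3, hq3]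
      show e.symm (t • p + u • q) ∈ K
      rw [h3]
      exact h
    · obtain ⟨x, hx⟩ := hKi
      refine ⟨e x, preimage_interior_subset_interior_preimage hes ?_⟩
      simpa using hx
    · intro p hp
      have h1 : e (e.symm p) = p := e.apply_symm_apply p
      rw [hev] at h1
      have h2 : p.1 = (e.symm p) i := (congrArg Prod.fst h1).symm
      rw [h2]
      exact ⟨hmin hp, hmax hp⟩
    · refine ⟨xm j, ?_⟩
      rw [← hev, hK2]
      simpa using hxm
    · refine ⟨xM j, ?_⟩
      rw [← hev, hK2]
      simpa using hxM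
  have hbmono : ∀ k, k + 1 < n → b k < b (k + 1) := fun k hk => by
    have hk0 : k < n := by omega
    simp only [hb]
    rw [hidx_lt k hk0, hidx_lt (k + 1) hk]
    exact hmono (by simp [Fin.lt_def])
  have hmass2 : ∀ k < n, volume (K2 ∩ cell2 n a b v k) = volume (K2 ∩ cell2 n a' b v' k) :=
    fun k _ => by
      rw [← he.measure_preimage_equiv, ← he.measure_preimage_equiv (K2 ∩ cell2 n a' b v' k),
        preimage_inter, preimage_inter, hpre, hcell, hcell', hmass]
  obtain ⟨c, hc⟩ := sup_stability2 hbody hn a a' b v v' hbmono κ (fun k _ => hκ (idx k)) hmass2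
  refine ⟨c, fun x hx => ?_⟩
  have hx2 : e x ∈ interior K2 := by
    apply preimage_interior_subset_interior_preimage hes
    simpa using hx
  have h := hc (e x) hx2
  rw [hpot, hpot'] at h
  refine h.trans ?_
  have hκ0 : 0 ≤ κ := (abs_nonneg _).trans (hκ ⟨0, hn⟩)
  have h1 : |xM i| ≤ rK := by
    have := PiLp.norm_apply_le xM i
    have h2 : ‖xM‖ ≤ rK := by simpa using hKr hxM
    exact this.trans h2
  have h2 : |xm i| ≤ rK := by
    have := PiLp.norm_apply_le xm i
    have h2 : ‖xm‖ ≤ rK := by simpa using hKr hxm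
    exact this.trans h2
  have h3 := abs_le.1 h1
  have h4 := abs_le.1 h2
  nlinarith [h3.2, h4.1]

theorem inner_two (x y : E 2) : ⟪x, y⟫_ℝ = x 0 * y 0 + x 1 * y 1 := by
  simp [PiLp.inner_apply, Fin.sum_univ_two]
  ring

/-- **Sup-norm stability in `E 2`.** -/
theorem sup_stability (K : Set (E 2)) (hK : IsCompact K) (hKc : Convex ℝ K)
    (hKi : (interior K).Nonempty) (rK : ℝ) (hKr : K ⊆ closedBall 0 rK) (hn : 0 < n)
    (i j : Fin 2) (hij : i ≠ j) (A B : Fin n → E 2) (hlev : ∀ p, A p j = B p j)
    (hinj : Function.Injective fun p => A p j) (κ : ℝ) (hκ : ∀ p, |A p i - B p i| ≤ κ)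
    (w w' : Fin n → ℝ) (hmass : ∀ p, volume (K ∩ cell A w p) = volume (K ∩ cell B w' p)) :
    ∃ c : ℝ, ∀ x ∈ interior K, |pot A w x - pot B w' x - c| ≤ rK * κ := by
  have h01 : (i = 0 ∧ j = 1) ∨ (i = 1 ∧ j = 0) := by
    revert hij
    fin_cases i <;> fin_cases j <;> simp
  rcases h01 with ⟨rfl, rfl⟩ | ⟨rfl, rfl⟩
  · exact sup_stability_aux coord01 measurePreserving_coord01 continuous_coord01
      continuous_coord01_symm 0 1 coord01_apply
      (fun x y => by rw [inner_two]; ring) K hK hKc hKi rK hKr hn A B hlev hinj κ hκ w w' hmass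
  · exact sup_stability_aux coord10 measurePreserving_coord10 continuous_coord10
      continuous_coord10_symm 1 0 coord10_apply
      (fun x y => by rw [inner_two]; ring) K hK hKc hKi rK hKr hn A B hlev hinj κ hκ w w' hmass

end Vale.Agent.Lib.P074
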